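import Vale.Agent.P298.H401.Thin
import Vale.Agent.P298.H967.InI
import Vale.Agent.P298.H373.Inst

/-!
# P298, row INI-INV (helper401), part 2: the functional `nu` and the condition `InI` under a
holomorphic change of coordinates
-/

namespace Vale.Agent.P298.H401

open MeasureTheory Set Filter Topology Metric Vale.Agent.P298 Vale.Agent.P298.H379
  Vale.Agent.P298.H373
open scoped ENNReal NNReal

variable {f : (Fin 3 → ℂ) → ℂ} {Ω U : Set (Fin 3 → ℂ)} {s : ℂ}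
  {ψ : (Fin 3 → ℂ) → (Fin 3 → ℂ)}

/-! ### chain rules -/

theorem pd_comp {x : Fin 3 → ℂ} (hf : DifferentiableAt ℂ f (ψ x)) (hψ : DifferentiableAt ℂ ψ x)
    (j : Fin 3) : pd j (fun x => f (ψ x)) x =
      ∑ l, pd l f (ψ x) * pd j (fun x => ψ x l) x := by
  have h1 : fderiv ℂ (fun x => f (ψ x)) x = (fderiv ℂ f (ψ x)).comp (fderiv ℂ ψ x) :=
    (hf.hasFDerivAt.comp x hψ.hasFDerivAt).fderiv
  have h2 : ∀ l, pd j (fun x => ψ x l) x = fderiv ℂ ψ x (Pi.single j 1) l := by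
    intro l
    have h3 : HasFDerivAt (fun x => ψ x l)
        ((ContinuousLinearMap.proj l : (Fin 3 → ℂ) →L[ℂ] ℂ).comp (fderiv ℂ ψ x)) x :=
      (ContinuousLinearMap.proj l : (Fin 3 → ℂ) →L[ℂ] ℂ).hasFDerivAt.comp x hψ.hasFDerivAt
    unfold pd
    rw [h3.fderiv]
    rfl
  have h4 : pd j (fun x => f (ψ x)) x = fderiv ℂ f (ψ x) (fderiv ℂ ψ x (Pi.single j 1)) := by
    unfold pd
    rw [h1]
    rfl
  rw [h4, fderiv_apply_pd]
  exact Finset.sum_congr rfl fun l _ => by rw [h2 l, mul_comm]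

/-- the Jacobian determinant -/
theorem det_eq {x : Fin 3 → ℂ} (hψ : DifferentiableAt ℂ ψ x) :
    (fderiv ℂ ψ x).det = Matrix.det (Matrix.of fun l j : Fin 3 => pd j (fun x => ψ x l) x) := by
  have h2 : ∀ j l, pd j (fun x => ψ x l) x = fderiv ℂ ψ x (Pi.single j 1) l := by
    intro j l
    have h3 : HasFDerivAt (fun x => ψ x l)
        ((ContinuousLinearMap.proj l : (Fin 3 → ℂ) →L[ℂ] ℂ).comp (fderiv ℂ ψ x)) x :=
      (ContinuousLinearMap.proj l : (Fin 3 → ℂ) →L[ℂ] ℂ).hasFDerivAt.comp x hψ.hasFDerivAt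
    unfold pd
    rw [h3.fderiv]
    rfl
  have h5 : (fderiv ℂ ψ x).det =
      LinearMap.det ((fderiv ℂ ψ x : (Fin 3 → ℂ) →L[ℂ] (Fin 3 → ℂ)) :
        (Fin 3 → ℂ) →ₗ[ℂ] (Fin 3 → ℂ)) := rfl
  rw [h5, ← LinearMap.det_toMatrix']
  congr 1
  ext l j
  rw [LinearMap.toMatrix'_apply, Matrix.of_apply, h2]
  rfl

theorem jac3_comp {f e h : (Fin 3 → ℂ) → ℂ} {x : Fin 3 → ℂ} (hf : DifferentiableAt ℂ f (ψ x))
    (he : DifferentiableAt ℂ e (ψ x)) (hh : DifferentiableAt ℂ h (ψ x))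
    (hψ : DifferentiableAt ℂ ψ x) :
    jac3 (fun x => f (ψ x)) (fun x => e (ψ x)) (fun x => h (ψ x)) x =
      jac3 f e h (ψ x) * (fderiv ℂ ψ x).det := by
  rw [det_eq hψ]
  unfold jac3
  rw [← Matrix.det_mul]
  congr 1
  ext i j
  rw [Matrix.mul_apply]
  fin_cases i
  · simpa using pd_comp hf hψ j
  · simpa using pd_comp he hψ j
  · simpa using pd_comp hh hψ j

theorem norm_jac3_comp {x : Fin 3 → ℂ} (hf : DifferentiableAt ℂ f (ψ x))
    (hψ : DifferentiableAt ℂ ψ x) :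
    ‖jac3 (fun x => f (ψ x)) (fun x => ψ x 0) (fun x => ψ x 1) x‖ₑ =
      ‖pd 2 f (ψ x)‖ₑ * ‖(fderiv ℂ ψ x).det‖ₑ := by
  have h1 := jac3_comp (e := fun y => y 0) (h := fun y => y 1) hf
    ((ContinuousLinearMap.proj 0 : (Fin 3 → ℂ) →L[ℂ] ℂ).differentiableAt)
    ((ContinuousLinearMap.proj 1 : (Fin 3 → ℂ) →L[ℂ] ℂ).differentiableAt) hψ
  rw [h1, enorm_mul]
  congr 1
  rw [← ofReal_norm, ← ofReal_norm, norm_jac3_proj (k := 2) (by decide) (by decide) (by decide)]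

/-! ### the null set -/

theorem map_nhds {x : Fin 3 → ℂ} (hψ : AnalyticAt ℂ ψ x) (hJ : (fderiv ℂ ψ x).det ≠ 0) :
    map ψ (𝓝 x) = 𝓝 (ψ x) := by
  have h1 : HasStrictFDerivAt ψ
      (((fderiv ℂ ψ x).toContinuousLinearEquivOfDetNeZero hJ :
        (Fin 3 → ℂ) ≃L[ℂ] (Fin 3 → ℂ)) : (Fin 3 → ℂ) →L[ℂ] (Fin 3 → ℂ)) x := by
    simpa using hψ.hasStrictFDerivAt
  exact h1.map_nhds_eq_of_equiv

theorem null_thin (hT : Thin f Ω s) (hU : IsOpen U) (hψ : AnalyticOnNhd ℂ ψ U)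
    (hm : MapsTo ψ U Ω) (hJ : ∀ x ∈ U, (fderiv ℂ ψ x).det ≠ 0) :
    volume (pr 0 1 '' {x | x ∈ U ∧ f (ψ x) = s ∧ pd 2 (fun x => f (ψ x)) x ≠ 0 ∧
      pd 2 f (ψ x) = 0}) = 0 := by
  set g : (Fin 3 → ℂ) → ℂ := fun x => f (ψ x) with hg
  have hgan : AnalyticOnNhd ℂ g U := fun x hx =>
    AnalyticAt.fun_comp (hT.an _ (hm hx)) (hψ x hx)
  obtain ⟨P, A, hA, -, hAU, hReg⟩ :=
    exists_patches hU hgan (i := 0) (j := 1) (k := 2) (by decide) (by decide) (by decide) s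
  have hsub : pr 0 1 '' {x | x ∈ U ∧ f (ψ x) = s ∧ pd 2 g x ≠ 0 ∧ pd 2 f (ψ x) = 0} ⊆
      ⋃ n, {p | p ∈ (P n).W ∧ pd 2 f (ψ ((P n).g p)) = 0} := by
    rintro p ⟨x, ⟨h1, h2, h3, h4⟩, rfl⟩
    have h5 : x ∈ Reg g U s 2 := ⟨h1, h2, h3⟩
    rw [hReg, mem_iUnion] at h5
    obtain ⟨n, hn⟩ := h5
    obtain ⟨h6, h7⟩ := (P n).inv x (hAU n hn) h2
    refine mem_iUnion.2 ⟨n, h6, ?_⟩
    change pd 2 f (ψ ((P n).g (x 0, x 1))) = 0
    rw [h7]
    exact h4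
  refine measure_mono_null hsub (measure_iUnion_null fun n => ?_)
  refine measure_null_of_locally_null _ fun p₀ hp₀ => ?_
  obtain ⟨hp₀W, hp₀0⟩ := hp₀
  obtain ⟨ε, hε, hball⟩ := Metric.isOpen_iff.1 (P n).hW p₀ hp₀W
  refine ⟨{p | p ∈ ball p₀ ε ∧ pd 2 f (ψ ((P n).g p)) = 0}, ?_, ?_⟩
  · rw [mem_nhdsWithin]
    exact ⟨ball p₀ ε, isOpen_ball, mem_ball_self hε, fun p hp => ⟨hp.1, hp.2.2⟩⟩
  · have hx₀U := (P n).gU p₀ hp₀W
    have hx₀ := (P n).hUΩ hx₀U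
    have hy := hm hx₀
    have hdf : DifferentiableAt ℂ f (ψ ((P n).g p₀)) := (hT.an _ hy).differentiableAt
    have hreg : fderiv ℂ f (ψ ((P n).g p₀)) ≠ 0 := by
      intro h0
      apply (P n).hne _ hx₀U
      refine (pd_comp hdf (hψ _ hx₀).differentiableAt 2).trans ?_
      refine Finset.sum_eq_zero fun l _ => ?_
      rw [show pd l f (ψ ((P n).g p₀)) = 0 by unfold pd; rw [h0]; rfl, zero_mul]
    have h1 := hT.frequently hy ((P n).gf p₀ hp₀W) hreg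
    rw [← map_nhds (hψ _ hx₀) (hJ _ hx₀), frequently_map] at h1
    have hpr : Continuous (pr 0 1) := by
      unfold pr
      fun_prop
    have h2 : ∀ᶠ x in 𝓝 ((P n).g p₀), x ∈ (P n).U ∧ pr 0 1 x ∈ ball p₀ ε := by
      refine Filter.Eventually.and ((P n).hU.mem_nhds hx₀U)
        (hpr.continuousAt.preimage_mem_nhds ?_)
      have : pr 0 1 ((P n).g p₀) = p₀ := Prod.ext ((P n).gi p₀ hp₀W) ((P n).gj p₀ hp₀W)
      rw [this]
      exact ball_mem_nhds p₀ hε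
    obtain ⟨x, ⟨hx1, hx2⟩, hx3, hx4⟩ := (h1.and_eventually h2).exists
    obtain ⟨h6, h7⟩ := (P n).inv x hx3 hx1
    refine Vale.Agent.P271.H879.null_zeros volume (x0 := pr 0 1 x) ?_ hx4 ?_
    · intro p hp
      have hpW := hball hp
      have hpU := (P n).hUΩ ((P n).gU p hpW)
      have e1 : AnalyticAt ℂ (pd 2 f) (ψ ((P n).g p)) := by
        have e2 : AnalyticAt ℂ (fderiv ℂ f) (ψ ((P n).g p)) := (hT.an _ (hm hpU)).fderiv
        exact (ContinuousLinearMap.apply ℂ ℂ (Pi.single 2 (1 : ℂ) : Fin 3 → ℂ)).analyticAt _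
          |>.fun_comp e2
      have e3 : DifferentiableAt ℂ (P n).g p := ((P n).hg p hpW).differentiableAt one_ne_zero
      have e4 : DifferentiableAt ℂ (fun p => ψ ((P n).g p)) p :=
        (hψ _ hpU).differentiableAt.comp p e3
      exact (e1.differentiableAt.comp p e4).differentiableWithinAt
    · change pd 2 f (ψ ((P n).g (x 0, x 1))) ≠ 0
      rw [h7]
      exact hx2

/-! ### the change of variables -/

theorem measurable_ind_open {F : (Fin 3 → ℂ) → ℝ≥0∞} (hF : Measurable F) (hU : IsOpen U)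
    (hψ : ContinuousOn ψ U) : Measurable (U.indicator fun x => F (ψ x)) := by
  classical
  have h1 : Measurable (U.piecewise ψ fun _ => 0) :=
    ContinuousOn.measurable_piecewise hψ continuousOn_const hU.measurableSet
  have h2 : (U.indicator fun x => F (ψ x)) =
      U.indicator fun x => F (U.piecewise ψ (fun _ => 0) x) := by
    funext x
    by_cases hx : x ∈ U
    · simp [hx]
    · simp [hx]
  rw [h2]
  exact (hF.comp h1).indicator hU.measurableSet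

/-- **Change of variables** for `nu`. -/
theorem nu_comp_le (hT : Thin f Ω s) (hU : IsOpen U) (hψ : AnalyticOnNhd ℂ ψ U)
    (hm : MapsTo ψ U Ω) (hinj : InjOn ψ U) (hJ : ∀ x ∈ U, (fderiv ℂ ψ x).det ≠ 0)
    {φ : (Fin 3 → ℂ) → ℝ≥0∞} (hφ : Measurable φ) :
    nu (fun x => f (ψ x)) s (U.indicator fun x => ‖(fderiv ℂ ψ x).det‖ₑ ^ 2 * φ (ψ x)) ≤
      nu f s ((ψ '' U).indicator φ) := by
  set g : (Fin 3 → ℂ) → ℂ := fun x => f (ψ x) with hg
  have hgan : AnalyticOnNhd ℂ g U := fun x hx =>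
    AnalyticAt.fun_comp (hT.an _ (hm hx)) (hψ x hx)
  have hψl : ∀ l : Fin 3, AnalyticOnNhd ℂ (fun x => ψ x l) U := fun l x hx =>
    ((ContinuousLinearMap.proj l : (Fin 3 → ℂ) →L[ℂ] ℂ).analyticAt _).fun_comp (hψ x hx)
  set F : (Fin 3 → ℂ) → ℝ≥0∞ := fun y => φ y / ‖pd 2 f y‖ₑ ^ 2 with hF
  have hFm : Measurable F := hφ.div ((measurable_pd 2 f).enorm.pow_const 2)
  set χ : (Fin 3 → ℂ) → ℝ≥0∞ := U.indicator fun x => F (ψ x) with hχ
  have hχm : Measurable χ := measurable_ind_open hFm hU hψ.continuousOn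
  have hχ0 : ∀ x, x ∉ U → χ x = 0 := fun x hx => indicator_of_notMem hx _
  have harea := nu_area hU hgan (hψl 0) (hψl 1) s hχm hχ0
  have hnull := null_thin hT hU hψ hm hJ
  have hleft : nu g s (U.indicator fun x => ‖(fderiv ℂ ψ x).det‖ₑ ^ 2 * φ (ψ x)) =
      nu g s (fun x => ‖jac3 g (fun x => ψ x 0) (fun x => ψ x 1) x‖ₑ ^ 2 * χ x) := by
    unfold nu
    refine lintegral_congr_ae ?_
    filter_upwards [measure_eq_zero_iff_ae_notMem.1 hnull] with p hp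
    unfold rootSum
    refine tsum_congr fun z => ?_
    congr 1
    by_cases hz : pt p z ∈ U
    · change _ = ‖jac3 g (fun x => ψ x 0) (fun x => ψ x 1) (pt p z)‖ₑ ^ 2 * χ (pt p z)
      have h3 : ‖jac3 g (fun x => ψ x 0) (fun x => ψ x 1) (pt p z)‖ₑ =
          ‖pd 2 f (ψ (pt p z))‖ₑ * ‖(fderiv ℂ ψ (pt p z)).det‖ₑ :=
        norm_jac3_comp (hT.an _ (hm hz)).differentiableAt (hψ _ hz).differentiableAt
      rw [indicator_of_mem hz, hχ, indicator_of_mem hz, h3]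
      have h1 : pd 2 f (ψ (pt p z)) ≠ 0 := by
        intro h0
        exact hp ⟨pt p z, ⟨hz, z.2.1, z.2.2, h0⟩, pr_pt p z⟩
      have h2 : ‖pd 2 f (ψ (pt p z))‖ₑ ≠ 0 := by simpa using h1
      rw [hF]
      simp only
      rw [mul_pow, mul_right_comm, ENNReal.mul_div_cancel, mul_comm]
      · exact pow_ne_zero 2 h2
      · finiteness
    · change _ = ‖jac3 g (fun x => ψ x 0) (fun x => ψ x 1) (pt p z)‖ₑ ^ 2 * χ (pt p z)
      rw [indicator_of_notMem hz, hχ0 _ hz, mul_zero]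
  rw [hleft, harea]
  refine lintegral_mono fun q => ?_
  unfold rootSum
  have hfib : ∀ x ∈ Fib g (fun x => ψ x 0) (fun x => ψ x 1) U s q,
      pt q (ψ x 2) = ψ x ∧ pd 2 f (ψ x) ≠ 0 := by
    rintro x ⟨h1, h2, h3, h4, h5, h6⟩
    have e1 : pt q (ψ x 2) = ψ x := by
      funext n
      fin_cases n
      · exact h3.symm
      · exact h4.symm
      · rfl
    refine ⟨e1, fun h0 => h6 ?_⟩
    rw [← enorm_eq_zero, hg, norm_jac3_comp (hT.an _ (hm h1)).differentiableAt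
      (hψ _ h1).differentiableAt, h0]
    simp
  let ι : Fib g (fun x => ψ x 0) (fun x => ψ x 1) U s q → Rts f s q := fun x =>
    ⟨ψ x 2, by
      obtain ⟨e1, e2⟩ := hfib x x.2
      refine ⟨?_, ?_⟩
      · rw [e1]; exact x.2.2.1
      · rw [e1]; exact e2⟩
  have hι : Function.Injective ι := by
    intro x x' h
    have h1 : ψ x 2 = ψ x' 2 := congrArg Subtype.val h
    have h2 : ψ x = ψ x' := by
      rw [← (hfib x x.2).1, ← (hfib x' x'.2).1, h1]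
    exact Subtype.ext (hinj x.2.1 x'.2.1 h2)
  refine le_trans (le_of_eq ?_) (ENNReal.tsum_comp_le_tsum_of_injective hι
    fun z : Rts f s q => (ψ '' U).indicator φ (pt q z) / ‖pd 2 f (pt q z)‖ₑ ^ 2)
  refine tsum_congr fun x => ?_
  change χ x = (ψ '' U).indicator φ (pt q (ψ x 2)) / ‖pd 2 f (pt q (ψ x 2))‖ₑ ^ 2
  rw [(hfib x x.2).1, indicator_of_mem (mem_image_of_mem ψ x.2.1), hχ, indicator_of_mem x.2.1]

end Vale.Agent.P298.H401
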