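import Vale.Agent.P298.H401.Inv
import Vale.Agent.P298.H845.Coord
import Vale.Agent.P298.H967.Jac

/-!
# P298, row INI-INV (helper401), part 4: germs of functions and of maps
-/

namespace Vale.Agent.P298.H401

open MeasureTheory Set Filter Topology Metric Vale.Agent.P298 Vale.Agent.P298.H379
open scoped ENNReal NNReal

variable {f g h : (Fin 3 → ℂ) → ℂ} {ψ : (Fin 3 → ℂ) → (Fin 3 → ℂ)}

/-- `nu` only depends on the function near the support of `φ` -/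
theorem nu_congr_fun {U : Set (Fin 3 → ℂ)} (hU : IsOpen U) (hfg : ∀ x ∈ U, f x = g x) {s : ℂ}
    {φ : (Fin 3 → ℂ) → ℝ≥0∞} (hφ : ∀ x, x ∉ U → φ x = 0) : nu f s φ = nu g s φ := by
  have hpd : ∀ x ∈ U, pd 2 f x = pd 2 g x := by
    intro x hx
    have h1 : f =ᶠ[𝓝 x] g := by
      filter_upwards [hU.mem_nhds hx] with y hy
      exact hfg y hy
    unfold pd
    rw [h1.fderiv_eq]
  unfold nu
  refine lintegral_congr fun p => ?_
  unfold rootSum
  rw [tsum_subtype (Rts f s p) fun z => φ (pt p z) / ‖pd 2 f (pt p z)‖ₑ ^ 2,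
    tsum_subtype (Rts g s p) fun z => φ (pt p z) / ‖pd 2 g (pt p z)‖ₑ ^ 2]
  refine tsum_congr fun z => ?_
  by_cases hz : pt p z ∈ U
  · have h1 : z ∈ Rts f s p ↔ z ∈ Rts g s p := by
      unfold Rts
      rw [mem_ofPred_eq, mem_ofPred_eq, hfg _ hz, hpd _ hz]
    by_cases hz' : z ∈ Rts f s p
    · rw [indicator_of_mem hz', indicator_of_mem (h1.1 hz'), hpd _ hz]
    · rw [indicator_of_notMem hz', indicator_of_notMem (fun h => hz' (h1.2 h))]
  · have h1 : φ (pt p z) = 0 := hφ _ hz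
    simp only [indicator, h1, ENNReal.zero_div, ite_self]

theorem inI_congr_fun {k : ℝ} (hfg : f =ᶠ[𝓝 (0 : Fin 3 → ℂ)] g) (hh : InI f k h) : InI g k h := by
  obtain ⟨h1, r, hr, hN⟩ := hh
  obtain ⟨r', hr', hb⟩ := Metric.eventually_nhds_iff_ball.1 hfg
  refine ⟨h1, min r r', lt_min hr hr', ?_⟩
  have h2 : Nloc g (min r r') k h = Nloc f (min r r') k h := by
    unfold Nloc
    refine (nu_congr_fun isOpen_ball (fun x hx => hb x (ball_subset_ball (min_le_right _ _) hx))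
      fun x hx => indicator_of_notMem hx _).symm
  rw [h2]
  exact (H967.Nloc_anti (min_le_left _ _)).trans_lt hN

/-- the inverse germ -/
theorem exists_inverse (hψ : AnalyticAt ℂ ψ 0) (hψ0 : ψ 0 = 0) (hdet : (fderiv ℂ ψ 0).det ≠ 0) :
    ∃ φ : (Fin 3 → ℂ) → (Fin 3 → ℂ), AnalyticAt ℂ φ 0 ∧ φ 0 = 0 ∧
      (∀ᶠ x in 𝓝 0, φ (ψ x) = x) ∧ (∀ᶠ x in 𝓝 0, ψ (φ x) = x) := by
  have h2 : HasStrictFDerivAt ψ
      (((fderiv ℂ ψ 0).toContinuousLinearEquivOfDetNeZero hdet :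
        (Fin 3 → ℂ) ≃L[ℂ] (Fin 3 → ℂ)) : (Fin 3 → ℂ) →L[ℂ] (Fin 3 → ℂ)) 0 := by
    simpa using hψ.hasStrictFDerivAt
  set e := h2.toOpenPartialHomeomorph ψ with he
  have hcoe : (e : (Fin 3 → ℂ) → (Fin 3 → ℂ)) = ψ := by
    rw [he, h2.toOpenPartialHomeomorph_coe]
  have h0 : (0 : Fin 3 → ℂ) ∈ e.source := h2.mem_toOpenPartialHomeomorph_source
  have h0' : (0 : Fin 3 → ℂ) ∈ e.target := by
    have := e.map_source h0
    rwa [hcoe, hψ0] at this
  have hs0 : e.symm 0 = 0 := by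
    have := e.left_inv h0
    rwa [hcoe, hψ0] at this
  refine ⟨e.symm, ?_, hs0, ?_, ?_⟩
  · refine e.analyticAt_symm (i := (fderiv ℂ ψ 0).toContinuousLinearEquivOfDetNeZero hdet)
      h0' ?_ ?_
    · rw [hs0, hcoe]; exact hψ
    · rw [hs0, hcoe]
      simp
  · filter_upwards [e.open_source.mem_nhds h0] with x hx
    have := e.left_inv hx
    rwa [hcoe] at this
  · filter_upwards [e.open_target.mem_nhds h0'] with x hx
    have := e.right_inv hx
    rwa [hcoe] at this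

theorem colength_comp' {n : ℕ} {s : Fin n → (Fin 3 → ℂ) → ℂ} {d : ℕ} (hψ : AnalyticAt ℂ ψ 0)
    (hψ0 : ψ 0 = 0) (hdet : (fderiv ℂ ψ 0).det ≠ 0) (h : Colength s d) :
    Colength (fun j x => s j (ψ x)) d := by
  obtain ⟨φ, h1, h2, h3, h4⟩ := exists_inverse hψ hψ0 hdet
  exact H845.colength_comp hψ h1 hψ0 h2 h3 h4 h

/-- **LC is invariant**, from a germ regular in the last variable. -/
theorem lc_comp (hf : Hol f) (hreg : Reg3 f) (hψ : AnalyticAt ℂ ψ 0)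
    (hψ0 : ψ 0 = 0) (hdet : (fderiv ℂ ψ 0).det ≠ 0) (hg : ∀ᶠ x in 𝓝 0, g x = f (ψ x))
    (hLC : ∀ h : (Fin 3 → ℂ) → ℂ, Hol h → h 0 = 0 → ∀ k : ℝ, 0 < k → InI f k h) :
    ∀ h : (Fin 3 → ℂ) → ℂ, Hol h → h 0 = 0 → ∀ k : ℝ, 0 < k → InI g k h := by
  intro h hh h0 k hk
  obtain ⟨φ, h1, h2, h3, h4⟩ := exists_inverse hψ hψ0 hdet
  have h5 : Hol fun x => h (φ x) := H845.hol_comp hh h1 h2
  have h6 := hLC _ h5 (by rw [h2, h0]) k hk
  have h7 := inI_comp hf hreg hψ hψ0 hdet h6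
  refine inI_congr_fun (f := fun x => f (ψ x)) ?_ (H967.inI_congr h7 ?_)
  · filter_upwards [hg] with x hx
    exact hx.symm
  · filter_upwards [h3] with x hx
    rw [hx]

theorem pd_mul_zero {u v : (Fin 3 → ℂ) → ℂ} {i : Fin 3} (hu : DifferentiableAt ℂ u 0)
    (hv : DifferentiableAt ℂ v 0) (h1 : pd i u 0 = 0) (h0 : u 0 = 0) :
    pd i (fun x => u x * v x) 0 = 0 := by
  unfold pd at h1 ⊢
  rw [fderiv_fun_mul hu hv, _root_.add_apply, _root_.smul_apply, _root_.smul_apply, h1, h0,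
    zero_smul, smul_zero, add_zero]

/-- the second derivatives at a critical point -/
theorem corank_comp (hf : Hol f) (hcrit : ∀ i, pd i f 0 = 0) (hψ : AnalyticAt ℂ ψ 0)
    (hψ0 : ψ 0 = 0) (hg : ∀ᶠ x in 𝓝 0, g x = f (ψ x)) (hc : ∀ i j, pd i (pd j f) 0 = 0) :
    ∀ i j, pd i (pd j g) 0 = 0 := by
  intro i j
  have hψt : Tendsto ψ (𝓝 0) (𝓝 0) := H845.tendsto_zero hψ hψ0
  have e1 : pd j g =ᶠ[𝓝 0] fun x => ∑ l, pd l f (ψ x) * pd j (fun x => ψ x l) x := by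
    filter_upwards [eventually_eventually_nhds.2 hg, hψ.eventually_analyticAt,
      hψt.eventually hf.eventually_analyticAt] with x h1 h2 h3
    rw [← pd_comp h3.differentiableAt h2.differentiableAt j]
    unfold pd
    rw [Filter.EventuallyEq.fderiv_eq (f₁ := g) (f := fun x => f (ψ x)) h1]
  have e2 : ∀ l, DifferentiableAt ℂ (pd l f) 0 := fun l =>
    (H967.hol_pd3 hf l).differentiableAt
  have hψl : ∀ l, Hol fun x => ψ x l := fun l =>
    ((ContinuousLinearMap.proj l : (Fin 3 → ℂ) →L[ℂ] ℂ).analyticAt _).fun_comp hψ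
  have e3 : ∀ l, DifferentiableAt ℂ (pd j fun x => ψ x l) 0 := fun l =>
    (H967.hol_pd3 (hψl l) j).differentiableAt
  have e4 : ∀ l, pd i (fun x => pd l f (ψ x)) 0 = 0 := by
    intro l
    have h1 := pd_comp (f := pd l f) (ψ := ψ) (x := 0) (by rw [hψ0]; exact e2 l)
      hψ.differentiableAt i
    rw [h1]
    refine Finset.sum_eq_zero fun m _ => ?_
    rw [hψ0, hc m l, zero_mul]
  have e5 : ∀ l, DifferentiableAt ℂ (fun x => pd l f (ψ x)) 0 := fun l =>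
    DifferentiableAt.fun_comp' (x := (0 : Fin 3 → ℂ)) (g := pd l f) (f := ψ)
      (by rw [hψ0]; exact e2 l) hψ.differentiableAt
  have e6 : ∀ l, pd i (fun x => pd l f (ψ x) * pd j (fun x => ψ x l) x) 0 = 0 := fun l =>
    pd_mul_zero (e5 l) (e3 l) (e4 l) (by rw [hψ0]; exact hcrit l)
  have e7 : pd i (pd j g) 0 = pd i (fun x => ∑ l, pd l f (ψ x) * pd j (fun x => ψ x l) x) 0 := by
    unfold pd at e1 ⊢
    rw [Filter.EventuallyEq.fderiv_eq e1]
  rw [e7]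
  have e8 : fderiv ℂ (fun x => ∑ l, pd l f (ψ x) * pd j (fun x => ψ x l) x) 0 =
      ∑ l, fderiv ℂ (fun x => pd l f (ψ x) * pd j (fun x => ψ x l) x) 0 :=
    fderiv_fun_sum fun l _ => (e5 l).mul (e3 l)
  change fderiv ℂ (fun x => ∑ l, pd l f (ψ x) * pd j (fun x => ψ x l) x) 0 (Pi.single i 1) = 0
  rw [e8, sum_apply]
  exact Finset.sum_eq_zero fun l _ => e6 l

end Vale.Agent.P298.H401
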