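import Vale.Agent.P298.H401.Comp

/-!
# P298, row INI-INV (helper401), part 3: the condition `InI` is invariant under germs of
biholomorphic maps, the source being regular in the last variable
-/

namespace Vale.Agent.P298.H401

open MeasureTheory Set Filter Topology Metric Vale.Agent.P298 Vale.Agent.P298.H379
open scoped ENNReal NNReal

/-- the germ is regular in the last variable -/
def Reg3 (f : (Fin 3 → ℂ) → ℂ) : Prop := ∃ᶠ z in 𝓝 (0 : ℂ), f ![0, 0, z] ≠ 0

theorem exists_thin {f : (Fin 3 → ℂ) → ℂ} (hf : Hol f) (hreg : Reg3 f) :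
    ∃ Ω ∈ 𝓝 (0 : Fin 3 → ℂ), Thin f Ω 0 := by
  obtain ⟨r, hr, han⟩ := H967.exists_ball hf
  obtain ⟨z₀, hz₀, hz₀r⟩ := (hreg.and_eventually (ball_mem_nhds (0 : ℂ) hr)).exists
  have hc : Continuous fun p : ℂ × ℂ => pt p z₀ := by
    unfold pt
    fun_prop
  have hmem : ∀ {a b z : ℂ}, ‖a‖ < r → ‖b‖ < r → ‖z‖ < r → pt (a, b) z ∈ ball (0 : Fin 3 → ℂ) r := by
    intro a b z ha hb hz
    rw [mem_ball_zero_iff, pi_norm_lt_iff hr]
    intro i
    fin_cases i
    · exact ha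
    · exact hb
    · exact hz
  have hz₀' : ‖z₀‖ < r := by simpa using hz₀r
  have h1 : ∀ᶠ p in 𝓝 ((0 : ℂ), (0 : ℂ)), f (pt p z₀) ≠ 0 := by
    have h2 : ContinuousAt f (pt ((0 : ℂ), (0 : ℂ)) z₀) :=
      (han _ (hmem (by simpa using hr) (by simpa using hr) hz₀')).continuousAt
    exact (h2.comp (f := fun p : ℂ × ℂ => pt p z₀) hc.continuousAt).eventually_ne hz₀
  obtain ⟨ε, hε, h2⟩ := Metric.eventually_nhds_iff_ball.1 h1
  set δ := min ε r with hδ
  have hδ0 : 0 < δ := lt_min hε hr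
  refine ⟨{x | ‖x 0‖ < δ ∧ ‖x 1‖ < δ ∧ ‖x 2‖ < r}, ?_, ?_, ?_, ?_⟩
  · have h3 : ball (0 : Fin 3 → ℂ) δ ⊆ {x | ‖x 0‖ < δ ∧ ‖x 1‖ < δ ∧ ‖x 2‖ < r} := by
      intro x hx
      rw [mem_ball_zero_iff, pi_norm_lt_iff hδ0] at hx
      exact ⟨hx 0, hx 1, (hx 2).trans_le (min_le_right _ _)⟩
    exact mem_of_superset (ball_mem_nhds _ hδ0) h3
  · have c0 : Continuous fun x : Fin 3 → ℂ => ‖x 0‖ := by fun_prop
    have c1 : Continuous fun x : Fin 3 → ℂ => ‖x 1‖ := by fun_prop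
    have c2 : Continuous fun x : Fin 3 → ℂ => ‖x 2‖ := by fun_prop
    exact (isOpen_lt c0 continuous_const).inter
      ((isOpen_lt c1 continuous_const).inter (isOpen_lt c2 continuous_const))
  · rintro x ⟨h3, h4, h5⟩
    refine han x ?_
    have := hmem (h3.trans_le (min_le_right _ _)) (h4.trans_le (min_le_right _ _)) h5
    convert this using 1
    funext i
    fin_cases i <;> rfl
  · rintro y ⟨h3, h4, h5⟩ hy hcon
    have h6 : ∀ᶠ z in 𝓝 (y 2), f (pt (y 0, y 1) z) = 0 := hcon.mono fun z hz => not_not.1 hz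
    have h7 : AnalyticOnNhd ℂ (fun z => f (pt (y 0, y 1) z)) (ball 0 r) := by
      intro z hz
      have h8 : AnalyticAt ℂ (fun z : ℂ => pt (y 0, y 1) z) z := by
        refine AnalyticAt.pi fun i => ?_
        fin_cases i
        · exact analyticAt_const
        · exact analyticAt_const
        · exact analyticAt_id
      exact AnalyticAt.fun_comp (han _ (hmem (h3.trans_le (min_le_right _ _))
        (h4.trans_le (min_le_right _ _)) (by simpa using hz))) h8
    have h9 := h7.eqOn_zero_of_preconnected_of_eventuallyEq_zero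
      (convex_ball (0 : ℂ) r).isPreconnected (by simpa using h5) h6 hz₀r
    have h10 : (y 0, y 1) ∈ ball ((0 : ℂ), (0 : ℂ)) ε := by
      rw [mem_ball, Prod.dist_eq, max_lt_iff]
      exact ⟨by simpa using h3.trans_le (min_le_left _ _),
        by simpa using h4.trans_le (min_le_left _ _)⟩
    exact h2 _ h10 h9

/-- **Invariance of the condition `InI`** under germs of biholomorphic maps. -/
theorem inI_comp {f h : (Fin 3 → ℂ) → ℂ} {ψ : (Fin 3 → ℂ) → (Fin 3 → ℂ)} {k : ℝ}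
    (hf : Hol f) (hreg : Reg3 f) (hψ : AnalyticAt ℂ ψ 0) (hψ0 : ψ 0 = 0)
    (hdet : (fderiv ℂ ψ 0).det ≠ 0) (hh : InI f k h) :
    InI (fun x => f (ψ x)) k (fun x => h (ψ x)) := by
  obtain ⟨Ω, hΩ, hT⟩ := exists_thin hf hreg
  obtain ⟨hh1, r, hr, hN⟩ := hh
  obtain ⟨r1, hr1, h1⟩ := H967.exists_ball hh1
  set r2 := min r r1 with hr2
  have hr2pos : 0 < r2 := lt_min hr hr1
  have hψt : Tendsto ψ (𝓝 0) (𝓝 0) := by
    have := hψ.continuousAt.tendsto
    rwa [hψ0] at this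
  -- the determinant
  have hdetc : ContinuousAt (fun x => (fderiv ℂ ψ x).det) 0 :=
    (ContinuousLinearMap.continuous_det.continuousAt).comp hψ.fderiv.continuousAt
  set c : ℝ := ‖(fderiv ℂ ψ 0).det‖ / 2 with hc
  have hcpos : 0 < c := by
    have : 0 < ‖(fderiv ℂ ψ 0).det‖ := norm_pos_iff.2 hdet
    positivity
  have hdet1 : ∀ᶠ x in 𝓝 (0 : Fin 3 → ℂ), c < ‖(fderiv ℂ ψ x).det‖ := by
    refine hdetc.norm.eventually (lt_mem_nhds ?_)
    have : 0 < ‖(fderiv ℂ ψ 0).det‖ := norm_pos_iff.2 hdet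
    change ‖(fderiv ℂ ψ 0).det‖ / 2 < _
    linarith
  -- injectivity
  have h2 : HasStrictFDerivAt ψ
      (((fderiv ℂ ψ 0).toContinuousLinearEquivOfDetNeZero hdet :
        (Fin 3 → ℂ) ≃L[ℂ] (Fin 3 → ℂ)) : (Fin 3 → ℂ) →L[ℂ] (Fin 3 → ℂ)) 0 := by
    simpa using hψ.hasStrictFDerivAt
  set e := h2.toOpenPartialHomeomorph ψ with he
  have hsrc : e.source ∈ 𝓝 (0 : Fin 3 → ℂ) :=
    e.open_source.mem_nhds h2.mem_toOpenPartialHomeomorph_source
  have hinj : InjOn ψ e.source := by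
    have := e.injOn
    rwa [he, h2.toOpenPartialHomeomorph_coe] at this
  -- a small ball
  obtain ⟨ρ, hρ, hall⟩ := Metric.eventually_nhds_iff_ball.1
    (hψ.eventually_analyticAt.and (hdet1.and ((eventually_mem_set.2 hsrc).and
      ((hψt.eventually (eventually_mem_set.2 hΩ)).and
        (hψt.eventually (ball_mem_nhds (0 : Fin 3 → ℂ) hr2pos))))))
  have hU : IsOpen (ball (0 : Fin 3 → ℂ) ρ) := isOpen_ball
  set φ : (Fin 3 → ℂ) → ℝ≥0∞ := (ball (0 : Fin 3 → ℂ) r2).indicator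
    (fun y => ‖h y‖ₑ ^ (2 / k)) with hφ
  have hφm : Measurable φ := H967.measurable_ind (h := h)
    (fun x hx => (h1 x (ball_subset_ball (min_le_right _ _) hx)).continuousAt.continuousWithinAt)
    (F := fun z : ℂ => ‖z‖ₑ ^ (2 / k)) (by fun_prop)
  have hkey := nu_comp_le (U := ball (0 : Fin 3 → ℂ) ρ) hT hU (fun x hx => (hall x hx).1)
    (fun x hx => (hall x hx).2.2.2.1) (hinj.mono fun x hx => (hall x hx).2.2.1)
    (fun x hx h0 => by
      have := (hall x hx).2.1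
      rw [h0, norm_zero] at this
      exact absurd this (not_lt.2 hcpos.le)) hφm
  have hle : nu f 0 ((ψ '' ball (0 : Fin 3 → ℂ) ρ).indicator φ) ≤ Nloc f r k h := by
    refine H967.nu_mono fun x _ _ => ?_
    refine (indicator_le_self _ _ _).trans ?_
    exact indicator_le_indicator_of_subset (ball_subset_ball (min_le_left _ _))
      (fun _ => zero_le) _
  refine ⟨?_, ρ, hρ, ?_⟩
  · have h3 : AnalyticAt ℂ h (ψ 0) := by rw [hψ0]; exact hh1
    exact AnalyticAt.fun_comp h3 hψ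
  · have hc1 : Nloc (fun x => f (ψ x)) ρ k (fun x => h (ψ x)) ≤
        ((c⁻¹.toNNReal ^ 2 : ℝ≥0) : ℝ≥0∞) * nu (fun x => f (ψ x)) 0
          ((ball (0 : Fin 3 → ℂ) ρ).indicator fun x => ‖(fderiv ℂ ψ x).det‖ₑ ^ 2 * φ (ψ x)) := by
      unfold Nloc
      rw [← H967.nu_const_mul_le]
      refine H967.nu_mono fun x _ _ => ?_
      by_cases hx : x ∈ ball (0 : Fin 3 → ℂ) ρ
      · have h6 : ψ x ∈ ball (0 : Fin 3 → ℂ) r2 := (hall x hx).2.2.2.2
        rw [indicator_of_mem hx, indicator_of_mem hx, hφ, indicator_of_mem h6, ← mul_assoc]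
        refine le_mul_of_one_le_left' ?_
        rw [ENNReal.coe_pow, ← mul_pow]
        refine one_le_pow_of_one_le' ?_ 2
        have h4 : ENNReal.ofReal c ≤ ‖(fderiv ℂ ψ x).det‖ₑ := by
          rw [← ofReal_norm]
          exact ENNReal.ofReal_le_ofReal (hall x hx).2.1.le
        have h5 : (1 : ℝ≥0∞) = ENNReal.ofReal c⁻¹ * ENNReal.ofReal c := by
          rw [← ENNReal.ofReal_mul (by positivity), inv_mul_cancel₀ hcpos.ne',
            ENNReal.ofReal_one]
        rw [h5]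
        exact mul_le_mul' le_rfl h4
      · rw [indicator_of_notMem hx, indicator_of_notMem hx, mul_zero]
    refine hc1.trans_lt (ENNReal.mul_lt_top ENNReal.coe_lt_top ?_)
    exact (hkey.trans hle).trans_lt hN

end Vale.Agent.P298.H401
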