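import Vale.Agent.P298.H401.Trunc

/-!
# P298, row INI-INV (helper401), part 7: the estimate of the Jacobian determinant
-/

namespace Vale.Agent.P298.H401

open MeasureTheory Set Filter Topology Metric Vale.Agent.P298 Vale.Agent.P298.H379
open scoped ENNReal NNReal

/-- the Jacobian determinant on `AnFun 3` -/
noncomputable def jA (u v w : AnFun 3) : AnFun 3 :=
  H766.pdA 0 u * H766.pdA 1 v * H766.pdA 2 w - H766.pdA 0 u * H766.pdA 2 v * H766.pdA 1 w -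
  H766.pdA 1 u * H766.pdA 0 v * H766.pdA 2 w + H766.pdA 1 u * H766.pdA 2 v * H766.pdA 0 w +
  H766.pdA 2 u * H766.pdA 0 v * H766.pdA 1 w - H766.pdA 2 u * H766.pdA 1 v * H766.pdA 0 w

theorem jA_apply (u v w : AnFun 3) (x : Fin 3 → ℂ) :
    (jA u v w : (Fin 3 → ℂ) → ℂ) x = jac3 u v w x := by
  simp only [jac3, Matrix.det_fin_three, Matrix.of_apply]
  rfl

theorem jA_perturb {N : ℕ} {u v w a b : AnFun 3} (ha : a ∈ qM 3 (N + 1))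
    (hb : b ∈ qM 3 (N + 1)) : jA u (v + a) (w + b) - jA u v w ∈ qM 3 N := by
  have key : ∀ (v a : AnFun 3), a ∈ qM 3 (N + 1) → ∀ i,
      Ideal.Quotient.mk (qM 3 N) (H766.pdA i (v + a)) =
        Ideal.Quotient.mk (qM 3 N) (H766.pdA i v) := by
    intro v a ha i
    rw [Ideal.Quotient.eq]
    have h1 : H766.pdA i (v + a) - H766.pdA i v =
        (H766.pdA i (v + a) - (H766.pdA i v + H766.pdA i a)) + H766.pdA i a := by ring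
    rw [h1]
    exact (qM 3 N).add_mem (H766.nul_le_qM _ (H766.pdA_add i v a)) (H766.pdA_qM i N a ha)
  rw [← Ideal.Quotient.eq]
  simp only [jA, map_sub, map_add, map_mul, key v a ha, key w b hb]

theorem jac3_congr {u u' v v' w w' : (Fin 3 → ℂ) → ℂ} {x₀ : Fin 3 → ℂ} (hu : u =ᶠ[𝓝 x₀] u')
    (hv : v =ᶠ[𝓝 x₀] v') (hw : w =ᶠ[𝓝 x₀] w') : jac3 u v w =ᶠ[𝓝 x₀] jac3 u' v' w' := by
  filter_upwards [hu.fderiv (𝕜 := ℂ), hv.fderiv (𝕜 := ℂ), hw.fderiv (𝕜 := ℂ)] with x h1 h2 h3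
  simp only [jac3, Matrix.det_fin_three, Matrix.of_apply, Matrix.cons_val_zero,
    Matrix.cons_val_one, Matrix.cons_val, pd, h1, h2, h3]

variable {g E E' F F' : (Fin 3 → ℂ) → ℂ} {M m : ℕ}

/-- comparison of a pair with a perturbation of high order -/
theorem pair_le {a b : AnFun 3} (hM : ∀ h ∈ qM 3 M, InIdeal ![g, E, E'] (h : (Fin 3 → ℂ) → ℂ))
    (ha : a ∈ qM 3 (M + 1)) (hb : b ∈ qM 3 (M + 1))
    (haF : ∀ᶠ x in 𝓝 (0 : Fin 3 → ℂ), F x = E x + (a : (Fin 3 → ℂ) → ℂ) x)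
    (hbF : ∀ᶠ x in 𝓝 (0 : Fin 3 → ℂ), F' x = E' x + (b : (Fin 3 → ℂ) → ℂ) x) :
    ∀ᶠ x in 𝓝 (0 : Fin 3 → ℂ), g x = 0 → max ‖E x‖ ‖E' x‖ ≤ 2 * max ‖F x‖ ‖F' x‖ := by
  obtain ⟨C1, hC1, h1⟩ := curve_bound hM
  obtain ⟨C2, hC2, h2⟩ := qM_bound ha
  obtain ⟨C3, hC3, h3⟩ := qM_bound hb
  have h4 : ∀ᶠ x in 𝓝 (0 : Fin 3 → ℂ), (C2 + C3) * C1 * ‖x‖ ≤ 1 / 2 := by
    have hc : Continuous fun x : Fin 3 → ℂ => (C2 + C3) * C1 * ‖x‖ := by fun_prop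
    have hc0 := hc.tendsto 0
    simp only [norm_zero, mul_zero] at hc0
    exact (hc0.eventually (gt_mem_nhds (by norm_num : (0 : ℝ) < 1 / 2))).mono fun x hx => hx.le
  filter_upwards [h1, h2, h3, h4, haF, hbF] with x e1 e2 e3 e4 e5 e6 hx
  have hmx : 0 ≤ max ‖E x‖ ‖E' x‖ := (norm_nonneg _).trans (le_max_left _ _)
  have e7 : (C2 + C3) * ‖x‖ ^ (M + 1) ≤ 1 / 2 * max ‖E x‖ ‖E' x‖ := by
    calc (C2 + C3) * ‖x‖ ^ (M + 1) = (C2 + C3) * ‖x‖ * ‖x‖ ^ M := by ring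
      _ ≤ (C2 + C3) * ‖x‖ * (C1 * max ‖E x‖ ‖E' x‖) := by
          gcongr
          exact e1 hx
      _ = (C2 + C3) * C1 * ‖x‖ * max ‖E x‖ ‖E' x‖ := by ring
      _ ≤ 1 / 2 * max ‖E x‖ ‖E' x‖ := by gcongr
  have e8 : ‖E x‖ ≤ max ‖F x‖ ‖F' x‖ + (C2 + C3) * ‖x‖ ^ (M + 1) := by
    have e9 : E x = F x - (a : (Fin 3 → ℂ) → ℂ) x := by rw [e5]; ring
    rw [e9]
    refine (norm_sub_le _ _).trans ?_
    refine add_le_add (le_max_left _ _) (e2.trans ?_)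
    gcongr
    linarith
  have e10 : ‖E' x‖ ≤ max ‖F x‖ ‖F' x‖ + (C2 + C3) * ‖x‖ ^ (M + 1) := by
    have e9 : E' x = F' x - (b : (Fin 3 → ℂ) → ℂ) x := by rw [e6]; ring
    rw [e9]
    refine (norm_sub_le _ _).trans ?_
    refine add_le_add (le_max_right _ _) (e3.trans ?_)
    gcongr
    linarith
  have e11 := max_le e8 e10
  linarith

/-- the estimate of the Jacobian determinant is stable under perturbations of high order -/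
theorem jac_perturb {a b : AnFun 3} (hm : 1 ≤ m) (hM1 : 1 ≤ M)
    (hM : ∀ h ∈ qM 3 M, InIdeal ![g, E, E'] (h : (Fin 3 → ℂ) → ℂ))
    (hg : Hol g) (hE : Hol E) (hE' : Hol E')
    (ha : a ∈ qM 3 (3 * M + 1)) (hb : b ∈ qM 3 (3 * M + 1))
    (haF : ∀ᶠ x in 𝓝 (0 : Fin 3 → ℂ), F x = E x + (a : (Fin 3 → ℂ) → ℂ) x)
    (hbF : ∀ᶠ x in 𝓝 (0 : Fin 3 → ℂ), F' x = E' x + (b : (Fin 3 → ℂ) → ℂ) x)
    (hJ : ∃ C : ℝ, ∀ᶠ x in 𝓝 (0 : Fin 3 → ℂ), g x = 0 →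
      ‖jac3 g E E' x‖ ^ m ≤ C * (max ‖E x‖ ‖E' x‖) ^ (2 * m + 1)) :
    ∃ C : ℝ, ∀ᶠ x in 𝓝 (0 : Fin 3 → ℂ), g x = 0 →
      ‖jac3 g F F' x‖ ^ m ≤ C * (max ‖F x‖ ‖F' x‖) ^ (2 * m + 1) := by
  obtain ⟨C, hC⟩ := hJ
  obtain ⟨C1, hC1, h1⟩ := curve_bound hM
  have hle : M + 1 ≤ 3 * M + 1 := by omega
  have h2 := pair_le hM (H766.qM_anti hle ha) (H766.qM_anti hle hb) haF hbF
  set gA : AnFun 3 := ⟨g, hg⟩
  set EA : AnFun 3 := ⟨E, hE⟩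
  set EA' : AnFun 3 := ⟨E', hE'⟩
  obtain ⟨C3, hC3, h3⟩ := qM_bound (jA_perturb (u := gA) (v := EA) (w := EA') ha hb)
  have h4 : ∀ᶠ x in 𝓝 (0 : Fin 3 → ℂ), ‖jac3 g F F' x - jac3 g E E' x‖ ≤ C3 * ‖x‖ ^ (3 * M) := by
    have e1 : jac3 g F F' =ᶠ[𝓝 0] jac3 (gA : (Fin 3 → ℂ) → ℂ) ((EA + a : AnFun 3) : (Fin 3 → ℂ) → ℂ)
        ((EA' + b : AnFun 3) : (Fin 3 → ℂ) → ℂ) := jac3_congr (EventuallyEq.refl _ _) haF hbF
    filter_upwards [e1, h3] with x e2 e3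
    rw [e2]
    have e4 : ((jA gA (EA + a) (EA' + b) - jA gA EA EA' : AnFun 3) : (Fin 3 → ℂ) → ℂ) x =
        (jA gA (EA + a) (EA' + b) : (Fin 3 → ℂ) → ℂ) x - (jA gA EA EA' : (Fin 3 → ℂ) → ℂ) x := rfl
    rw [e4, jA_apply, jA_apply] at e3
    exact e3
  have h5 : ∀ᶠ x in 𝓝 (0 : Fin 3 → ℂ), ‖x‖ ≤ 1 := by
    filter_upwards [ball_mem_nhds (0 : Fin 3 → ℂ) one_pos] with x hx
    exact (mem_ball_zero_iff.1 hx).le
  refine ⟨2 ^ (m - 1) * (max C 0 + C3 ^ m * C1 ^ (2 * m + 1)) * 2 ^ (2 * m + 1), ?_⟩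
  filter_upwards [hC, h1, h2, h4, h5] with x e1 e2 e3 e4 e5 hx
  have e1 := e1 hx
  have e2 := e2 hx
  have e3 := e3 hx
  set mx := max ‖E x‖ ‖E' x‖ with hmx
  set mf := max ‖F x‖ ‖F' x‖ with hmf
  have hmx0 : 0 ≤ mx := (norm_nonneg _).trans (le_max_left _ _)
  have hmf0 : 0 ≤ mf := (norm_nonneg _).trans (le_max_left _ _)
  have hx0 : 0 ≤ ‖x‖ := norm_nonneg x
  have e6 : ‖jac3 g F F' x‖ ≤ ‖jac3 g E E' x‖ + C3 * ‖x‖ ^ (3 * M) := by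
    have : jac3 g F F' x = jac3 g E E' x + (jac3 g F F' x - jac3 g E E' x) := by ring
    rw [this]
    exact (norm_add_le _ _).trans (add_le_add le_rfl e4)
  have e7 : (‖x‖ ^ (3 * M)) ^ m ≤ (C1 * mx) ^ (2 * m + 1) := by
    calc (‖x‖ ^ (3 * M)) ^ m = (‖x‖ ^ M) ^ (3 * m) := by
          rw [← pow_mul, ← pow_mul]
          congr 1
          ring
      _ ≤ (‖x‖ ^ M) ^ (2 * m + 1) :=
          pow_le_pow_of_le_one (by positivity) (pow_le_one₀ hx0 e5) (by omega)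
      _ ≤ (C1 * mx) ^ (2 * m + 1) := by gcongr
  calc ‖jac3 g F F' x‖ ^ m ≤ (‖jac3 g E E' x‖ + C3 * ‖x‖ ^ (3 * M)) ^ m := by gcongr
    _ ≤ 2 ^ (m - 1) * (‖jac3 g E E' x‖ ^ m + (C3 * ‖x‖ ^ (3 * M)) ^ m) :=
        add_pow_le (norm_nonneg _) (by positivity) m
    _ ≤ 2 ^ (m - 1) * (max C 0 * mx ^ (2 * m + 1) + C3 ^ m * (C1 * mx) ^ (2 * m + 1)) := by
        rw [mul_pow C3]
        gcongr
        refine e1.trans ?_
        gcongr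
        exact le_max_left _ _
    _ = 2 ^ (m - 1) * (max C 0 + C3 ^ m * C1 ^ (2 * m + 1)) * mx ^ (2 * m + 1) := by
        rw [mul_pow]
        ring
    _ ≤ 2 ^ (m - 1) * (max C 0 + C3 ^ m * C1 ^ (2 * m + 1)) * (2 * mf) ^ (2 * m + 1) := by
        gcongr
    _ = _ := by
        rw [mul_pow]
        ring

/-- the estimate of the Jacobian determinant under a change of coordinates -/
theorem jac_comp {f e e' : (Fin 3 → ℂ) → ℂ} {ψ : (Fin 3 → ℂ) → (Fin 3 → ℂ)} (hf : Hol f)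
    (he : Hol e) (he' : Hol e') (hψ : AnalyticAt ℂ ψ 0) (hψ0 : ψ 0 = 0)
    (hg : ∀ᶠ x in 𝓝 0, g x = f (ψ x))
    (hJ : ∃ C : ℝ, ∀ᶠ x in 𝓝 (0 : Fin 3 → ℂ), f x = 0 →
      ‖jac3 f e e' x‖ ^ m ≤ C * (max ‖e x‖ ‖e' x‖) ^ (2 * m + 1)) :
    ∃ C : ℝ, ∀ᶠ x in 𝓝 (0 : Fin 3 → ℂ), g x = 0 →
      ‖jac3 g (fun x => e (ψ x)) (fun x => e' (ψ x)) x‖ ^ m ≤
        C * (max ‖e (ψ x)‖ ‖e' (ψ x)‖) ^ (2 * m + 1) := by
  obtain ⟨C, hC⟩ := hJ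
  have hψt : Tendsto ψ (𝓝 0) (𝓝 0) := H845.tendsto_zero hψ hψ0
  have hdetc : ContinuousAt (fun x => (fderiv ℂ ψ x).det) 0 :=
    (ContinuousLinearMap.continuous_det.continuousAt).comp hψ.fderiv.continuousAt
  have hdet : ∀ᶠ x in 𝓝 (0 : Fin 3 → ℂ), ‖(fderiv ℂ ψ x).det‖ < ‖(fderiv ℂ ψ 0).det‖ + 1 :=
    hdetc.norm.eventually (gt_mem_nhds (lt_add_one _))
  have h1 : jac3 g (fun x => e (ψ x)) (fun x => e' (ψ x)) =ᶠ[𝓝 0]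
      jac3 (fun x => f (ψ x)) (fun x => e (ψ x)) (fun x => e' (ψ x)) :=
    jac3_congr hg (EventuallyEq.refl _ _) (EventuallyEq.refl _ _)
  refine ⟨(‖(fderiv ℂ ψ 0).det‖ + 1) ^ m * C, ?_⟩
  filter_upwards [h1, hdet, hg, hψt.eventually hC, hψ.eventually_analyticAt,
    hψt.eventually hf.eventually_analyticAt, hψt.eventually he.eventually_analyticAt,
    hψt.eventually he'.eventually_analyticAt] with x e1 e2 e3 e4 e5 e6 e7 e8 hx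
  rw [e1, jac3_comp e6.differentiableAt e7.differentiableAt e8.differentiableAt
    e5.differentiableAt, norm_mul, mul_pow, mul_comm, mul_assoc]
  gcongr
  exact e4 (by rw [← e3, hx])

end Vale.Agent.P298.H401
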