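import Vale.Agent.P298.Main.Iface
import Vale.Agent.P298.H401.JacT

/-!
# P298, row INI-INV (helper401), outputs in the language of `Main/Iface.lean`
-/

namespace Vale.Agent.P298.H401

open MeasureTheory Set Filter Topology Metric Vale.Agent.P298 Vale.Agent.P298.H379
open Vale.Agent.P298.H752 (GoodFam)
open scoped ENNReal NNReal

theorem lcCompStmt : Main.LCCompStmt := by
  intro f g ψ _ hf _ _ _ hreg hψ hg hLC
  exact lc_comp hf hreg hψ.analytic hψ.zero hψ.det hg hLC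

theorem corankCompStmt : Main.CorankCompStmt := by
  intro f g ψ hf _ hcrit hψ hg hc
  exact corank_comp hf hcrit hψ.analytic hψ.zero hg hc

theorem regStmt : Main.RegStmt := by
  intro r hr F hF μ hμ
  obtain ⟨r₁, F₁, h1, h2, h3, h4, h5⟩ := exists_reg hr hF hμ
  exact ⟨r₁, F₁, h1, h2, h3, h4, h5⟩

/-- the composition of two germs of biholomorphic maps -/
theorem Bih.comp {ψ φ : (Fin 3 → ℂ) → (Fin 3 → ℂ)} (hψ : Main.Bih ψ) (hφ : Main.Bih φ) :
    Main.Bih fun x => ψ (φ x) := by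
  have h1 : AnalyticAt ℂ ψ (φ 0) := by rw [hφ.zero]; exact hψ.analytic
  refine ⟨h1.fun_comp hφ.analytic, by rw [hφ.zero, hψ.zero], ?_⟩
  have h2 : HasFDerivAt (fun x => ψ (φ x)) ((fderiv ℂ ψ (φ 0)).comp (fderiv ℂ φ 0)) 0 :=
    HasFDerivAt.comp (g := ψ) 0 h1.differentiableAt.hasFDerivAt
      hφ.analytic.differentiableAt.hasFDerivAt
  rw [h2.fderiv, hφ.zero]
  have h3 : ((fderiv ℂ ψ 0).comp (fderiv ℂ φ 0)).det =
      (fderiv ℂ ψ 0).det * (fderiv ℂ φ 0).det := by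
    unfold ContinuousLinearMap.det
    rw [ContinuousLinearMap.toLinearMap_comp, LinearMap.det_comp]
  rw [h3]
  exact mul_ne_zero hψ.det hφ.det

theorem Bih.exists_inv {ψ : (Fin 3 → ℂ) → (Fin 3 → ℂ)} (hψ : Main.Bih ψ) :
    ∃ φ, Main.Bih φ ∧ (∀ᶠ x in 𝓝 0, φ (ψ x) = x) ∧ (∀ᶠ x in 𝓝 0, ψ (φ x) = x) := by
  obtain ⟨φ, h1, h2, h3, h4⟩ := exists_inverse hψ.analytic hψ.zero hψ.det
  refine ⟨φ, ⟨h1, h2, ?_⟩, h3, h4⟩
  have h5 : AnalyticAt ℂ φ (ψ 0) := by rw [hψ.zero]; exact h1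
  have h6 : HasFDerivAt (fun x => φ (ψ x)) ((fderiv ℂ φ (ψ 0)).comp (fderiv ℂ ψ 0)) 0 :=
    HasFDerivAt.comp (g := φ) 0 h5.differentiableAt.hasFDerivAt
      hψ.analytic.differentiableAt.hasFDerivAt
  have h7 : HasFDerivAt (fun x => φ (ψ x)) (ContinuousLinearMap.id ℂ (Fin 3 → ℂ)) 0 :=
    (hasFDerivAt_id _).congr_of_eventuallyEq h3
  have h8 := h6.unique h7
  rw [hψ.zero] at h8
  have h9 := congrArg (fun A : (Fin 3 → ℂ) →L[ℂ] (Fin 3 → ℂ) =>
    LinearMap.det (A : (Fin 3 → ℂ) →ₗ[ℂ] (Fin 3 → ℂ))) h8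
  simp only [ContinuousLinearMap.toLinearMap_comp, LinearMap.det_comp] at h9
  intro h0
  have h10 : LinearMap.det ((fderiv ℂ φ 0 : (Fin 3 → ℂ) →L[ℂ] (Fin 3 → ℂ)) :
      (Fin 3 → ℂ) →ₗ[ℂ] (Fin 3 → ℂ)) = 0 := h0
  rw [h10, zero_mul] at h9
  simp at h9

/-- The data of block E1 under a change of coordinates, from a germ regular in `x₃`. -/
theorem e1data_comp {f g e e' : (Fin 3 → ℂ) → ℂ} {m A : ℕ} {ψ : (Fin 3 → ℂ) → (Fin 3 → ℂ)}
    (hf : Hol f) (hreg : Main.Reg3 f) (hψ : Main.Bih ψ) (hg : ∀ᶠ x in 𝓝 0, g x = f (ψ x))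
    (h : Main.E1Data f m A e e') :
    Main.E1Data g m A (fun x => e (ψ x)) (fun x => e' (ψ x)) where
  m_two := h.m_two
  hol := H845.hol_comp h.hol hψ.analytic hψ.zero
  hol' := H845.hol_comp h.hol' hψ.analytic hψ.zero
  zero := by rw [hψ.zero, h.zero]
  zero' := by rw [hψ.zero, h.zero']
  inI := fun k hk hkm => inI_congr_fun (hg.mono fun x hx => hx.symm)
    (inI_comp hf hreg hψ.analytic hψ.zero hψ.det (h.inI k hk hkm))
  inI' := fun k hk hkm => inI_congr_fun (hg.mono fun x hx => hx.symm)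
    (inI_comp hf hreg hψ.analytic hψ.zero hψ.det (h.inI' k hk hkm))
  col := by
    have h1 := colength_comp' hψ.analytic hψ.zero hψ.det h.col
    have h2 : ∀ j, (fun x => (![f, e, e'] : Fin 3 → (Fin 3 → ℂ) → ℂ) j (ψ x)) =ᶠ[𝓝 0]
        (![g, fun x => e (ψ x), fun x => e' (ψ x)] : Fin 3 → (Fin 3 → ℂ) → ℂ) j := by
      intro j
      fin_cases j
      · exact hg.mono fun x hx => hx.symm
      · exact EventuallyEq.refl _ _
      · exact EventuallyEq.refl _ _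
    refine (H766.colength_congr (fun j => ?_) (fun j => ?_) A).1 h1
    · exact H766.inIdeal_of_eventuallyEq (H766.inIdeal_self _ j) (h2 j)
    · exact H766.inIdeal_of_eventuallyEq (H766.inIdeal_self _ j) (h2 j).symm
  jac := jac_comp hf h.hol h.hol' hψ.analytic hψ.zero hg h.jac

theorem truncStmt : Main.TruncStmt := by
  intro f μ m A e e' hf _ _ hreg h _
  obtain ⟨M, hM1, hM⟩ := exists_M A
  refine ⟨3 * M + 6, fun d hd ε P hG hP => ?_⟩
  obtain ⟨ψ, hψ, hPψ⟩ := hP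
  have hm : 1 ≤ m := by
    have := h.m_two
    omega
  set g := P.f 0 with hgdef
  have hg : Hol g := by
    have h0 : (0 : ℂ) ∈ ball (0 : ℂ) ε := mem_ball_self hG.pos
    exact AnalyticAt.comp₂ (h := fun p : (Fin 3 → ℂ) × ℂ => P.f p.2 p.1) (f := fun x => x)
      (g := fun _ => 0) (hG.hol 0 h0).1 analyticAt_id analyticAt_const
  have hE := e1data_comp hf hreg hψ hPψ h
  set E := fun x => e (ψ x) with hEdef
  set E' := fun x => e' (ψ x) with hEdef'
  have hMg := hM ![g, E, E'] (hol_triple hg hE.hol hE.hol') hE.col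
  obtain ⟨p, hpd, hp⟩ := exists_poly_deg (3 * M + 1) (⟨E, hE.hol⟩ : AnFun 3)
  obtain ⟨p', hpd', hp'⟩ := exists_poly_deg (3 * M + 1) (⟨E', hE.hol'⟩ : AnFun 3)
  have hdeg : 3 * M + 1 ≤ m * (d - 4) := by
    calc 3 * M + 1 ≤ d - 4 := by omega
      _ = 1 * (d - 4) := (one_mul _).symm
      _ ≤ m * (d - 4) := Nat.mul_le_mul_right _ hm
  set v := toQ d (m * (d - 4)) p with hv
  set v' := toQ d (m * (d - 4)) p' with hv'
  have hev : ∀ x, ev v x = (H766.toAn 3 p : (Fin 3 → ℂ) → ℂ) x := by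
    intro x
    rw [hv, ev_toQ p (hpd.trans hdeg) (by omega), H766.toAn_apply]
  have hev' : ∀ x, ev v' x = (H766.toAn 3 p' : (Fin 3 → ℂ) → ℂ) x := by
    intro x
    rw [hv', ev_toQ p' (hpd'.trans hdeg) (by omega), H766.toAn_apply]
  set a : AnFun 3 := H766.toAn 3 p - ⟨E, hE.hol⟩ with ha
  set b : AnFun 3 := H766.toAn 3 p' - ⟨E', hE.hol'⟩ with hb
  have haM : a ∈ qM 3 (3 * M + 1) := by
    rw [ha, ← neg_sub]
    exact (qM 3 _).neg_mem hp
  have hbM : b ∈ qM 3 (3 * M + 1) := by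
    rw [hb, ← neg_sub]
    exact (qM 3 _).neg_mem hp'
  have hva : ∀ x, ev v x = E x + (a : (Fin 3 → ℂ) → ℂ) x := by
    intro x
    have h1 : (a : (Fin 3 → ℂ) → ℂ) x = (H766.toAn 3 p : (Fin 3 → ℂ) → ℂ) x - E x := rfl
    rw [hev, h1]
    ring
  have hvb : ∀ x, ev v' x = E' x + (b : (Fin 3 → ℂ) → ℂ) x := by
    intro x
    have h1 : (b : (Fin 3 → ℂ) → ℂ) x = (H766.toAn 3 p' : (Fin 3 → ℂ) → ℂ) x - E' x := rfl
    rw [hev', h1]
    ring
  have hzero : ∀ c : AnFun 3, c ∈ qM 3 (3 * M + 1) → (c : (Fin 3 → ℂ) → ℂ) 0 = 0 := by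
    intro c hc
    obtain ⟨C, _, hb⟩ := qM_bound hc
    have h1 := hb.self_of_nhds
    rw [norm_zero, zero_pow (by omega), mul_zero] at h1
    exact norm_le_zero_iff.1 h1
  have hvan : Hol (ev v) := by
    have h1 : ev v = (H766.toAn 3 p : (Fin 3 → ℂ) → ℂ) := funext hev
    rw [h1]
    exact (H766.toAn 3 p).2
  have hvan' : Hol (ev v') := by
    have h1 : ev v' = (H766.toAn 3 p' : (Fin 3 → ℂ) → ℂ) := funext hev'
    rw [h1]
    exact (H766.toAn 3 p').2
  have hle : M + 1 ≤ 3 * M + 1 := by omega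
  have hle' : M ≤ 3 * M + 1 := by omega
  refine ⟨v, v', ?_⟩
  exact
  { m_two := h.m_two
    hol := hvan
    hol' := hvan'
    zero := by rw [hva, hE.zero, hzero a haM, add_zero]
    zero' := by rw [hvb, hE.zero', hzero b hbM, add_zero]
    inI := fun k hk hkm => by
      have h1 := inI_of_inIdeal hk hg (hE.inI k hk hkm) (hE.inI' k hk hkm)
        (hMg a (H766.qM_anti hle' haM))
      have h2 := H967.inI_add H373.areaI hk hg (hE.inI k hk hkm) h1
      have h3 : ev v = fun x => E x + (a : (Fin 3 → ℂ) → ℂ) x := funext hva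
      rw [h3]
      exact h2
    inI' := fun k hk hkm => by
      have h1 := inI_of_inIdeal hk hg (hE.inI k hk hkm) (hE.inI' k hk hkm)
        (hMg b (H766.qM_anti hle' hbM))
      have h2 := H967.inI_add H373.areaI hk hg (hE.inI' k hk hkm) h1
      have h3 : ev v' = fun x => E' x + (b : (Fin 3 → ℂ) → ℂ) x := funext hvb
      rw [h3]
      exact h2
    col := colength_perturb hMg (H766.qM_anti hle haM) (H766.qM_anti hle hbM)
      (Eventually.of_forall hva) (Eventually.of_forall hvb) hE.col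
    jac := jac_perturb hm hM1 hMg hg hE.hol hE.hol' haM hbM (Eventually.of_forall hva)
      (Eventually.of_forall hvb) hE.jac }

end Vale.Agent.P298.H401
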