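import Vale.Agent.P298.H401.Inv
import Vale.Agent.P298.H845.Coord
import Vale.Agent.P298.H766.Col

/-!
# P298, row INI-INV (helper401), part 5: a linear change of coordinates makes a family regular in
the last variable
-/

namespace Vale.Agent.P298.H401

open MeasureTheory Set Filter Topology Metric Vale.Agent.P298 Vale.Agent.P298.H379
open scoped ENNReal NNReal

/-- a germ with a Milnor number is not zero -/
theorem not_eventually_zero {f : (Fin 3 → ℂ) → ℂ} (hf : Hol f) {μ : ℕ} (hμ : Milnor f μ) :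
    ¬ f =ᶠ[𝓝 0] 0 := by
  intro h0
  have hpd : ∀ i, Hol (pd i f) := fun i => by
    have h1 : AnalyticAt ℂ (fderiv ℂ f) 0 := AnalyticAt.fderiv hf
    exact (ContinuousLinearMap.apply ℂ ℂ (Pi.single i (1 : ℂ) : Fin 3 → ℂ)).analyticAt _
      |>.fun_comp h1
  have hz : ∀ i, pd i f =ᶠ[𝓝 0] 0 := by
    intro i
    filter_upwards [eventually_eventually_nhds.2 h0] with x hx
    have h1 : f =ᶠ[𝓝 x] fun _ => 0 := hx
    unfold pd
    rw [h1.fderiv_eq]
    simp
  have h1 : HasColength (Set.range fun i => pd i f) μ := hasColength_of_colength hpd hμ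
  obtain ⟨M, hM⟩ := qM_le 3 μ
  have h2 := hM M le_rfl _ h1
  have h3 : locIdeal (Set.range fun i => pd i f) ≤ nul 3 := by
    unfold locIdeal
    rw [Ideal.span_le]
    rintro g (hg | ⟨i, hi⟩)
    · exact hg
    · change (g : (Fin 3 → ℂ) → ℂ) =ᶠ[𝓝 0] 0
      rw [← hi]
      exact hz i
  have h4 : coordF 3 0 ^ M ∈ nul 3 := by
    refine h3 (h2 (H766.mX_pow_le_qM M ?_))
    exact Ideal.pow_mem_pow (H766.coordF_mem 0) M
  rw [mem_nul] at h4
  have h5 : Tendsto (fun z : ℂ => (fun _ => z : Fin 3 → ℂ)) (𝓝 0) (𝓝 0) := by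
    have : Continuous (fun z : ℂ => (fun _ => z : Fin 3 → ℂ)) := by fun_prop
    exact this.tendsto' _ _ rfl
  have h6 := h5.eventually h4
  have h7 : ∃ᶠ z : ℂ in 𝓝 0, z ≠ 0 := by
    have : (𝓝[≠] (0 : ℂ)).NeBot := inferInstance
    exact (frequently_nhdsWithin_iff.1
      (Filter.Eventually.frequently (f := 𝓝[≠] (0 : ℂ)) self_mem_nhdsWithin)).mono fun z hz => hz.1
  obtain ⟨z, hz1, hz2⟩ := (h7.and_eventually h6).exists
  apply hz1
  have h8 : z ^ M = 0 := by simpa [coordF] using hz2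
  exact eq_zero_of_pow_eq_zero h8

/-- a line on which the germ does not vanish -/
theorem exists_line {f : (Fin 3 → ℂ) → ℂ} (hf : Hol f) (h0 : ¬ f =ᶠ[𝓝 0] 0) :
    ∃ v : Fin 3 → ℂ, ∃ᶠ z in 𝓝 (0 : ℂ), f (z • v) ≠ 0 := by
  by_contra hcon
  push Not at hcon
  apply h0
  obtain ⟨r, hr, han⟩ := H967.exists_ball hf
  filter_upwards [ball_mem_nhds (0 : Fin 3 → ℂ) hr] with x hx
  have h1 : ∀ᶠ z in 𝓝 (0 : ℂ), f (z • x) = 0 := by
    exact hcon x
  have hx' : ‖x‖ < r := by simpa using hx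
  set U : Set ℂ := {z | ‖z‖ * ‖x‖ < r} with hU
  have h2 : AnalyticOnNhd ℂ (fun z : ℂ => f (z • x)) U := by
    intro z hz
    have h3 : AnalyticAt ℂ (fun z : ℂ => z • x) z := analyticAt_id.smul analyticAt_const
    refine AnalyticAt.fun_comp (han _ ?_) h3
    rw [mem_ball_zero_iff, norm_smul]
    exact hz
  have hconv : Convex ℝ U := by
    intro a ha b hb s t hs ht hst
    simp only [hU, mem_ofPred_eq] at ha hb ⊢
    calc ‖s • a + t • b‖ * ‖x‖ ≤ (s * ‖a‖ + t * ‖b‖) * ‖x‖ := by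
          gcongr
          refine (norm_add_le _ _).trans ?_
          rw [norm_smul, norm_smul, Real.norm_of_nonneg hs, Real.norm_of_nonneg ht]
      _ = s * (‖a‖ * ‖x‖) + t * (‖b‖ * ‖x‖) := by ring
      _ < r := by
          rcases eq_or_lt_of_le hs with h | h
          · have : t = 1 := by linarith
            rw [← h, this]
            linarith
          · nlinarith
  have h4 := h2.eqOn_zero_of_preconnected_of_eventuallyEq_zero hconv.isPreconnected
    (z₀ := 0) (by simp [hU, hr]) h1 (show (1 : ℂ) ∈ U by simpa [hU] using hx')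
  simpa using h4

/-- A linear change of coordinates as a change of coordinates with parameters. -/
noncomputable def linCh (A : (Fin 3 → ℂ) ≃L[ℂ] (Fin 3 → ℂ)) :
    OpenPartialHomeomorph ((Fin 3 → ℂ) × ℂ) ((Fin 3 → ℂ) × ℂ) :=
  (A.prodCongr (ContinuousLinearEquiv.refl ℂ ℂ)).toHomeomorph.toOpenPartialHomeomorph

theorem linCh_apply (A : (Fin 3 → ℂ) ≃L[ℂ] (Fin 3 → ℂ)) (p : (Fin 3 → ℂ) × ℂ) :
    linCh A p = (A p.1, p.2) := rfl

/-- **Regularity in the last variable** after a linear change of coordinates. -/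
theorem exists_reg {r : ℝ} (hr : 0 < r) {F : (Fin 3 → ℂ) → ℂ → ℂ} (hF : IsHolFamily r F)
    {μ : ℕ} (hμ : ∀ t ∈ ball (0 : ℂ) r, Milnor (F · t) μ) :
    ∃ (r₁ : ℝ) (F₁ : (Fin 3 → ℂ) → ℂ → ℂ), 0 < r₁ ∧ IsHolFamily r₁ F₁ ∧
      (∀ t ∈ ball (0 : ℂ) r₁, Milnor (F₁ · t) μ) ∧
      (∃ᶠ z in 𝓝 (0 : ℂ), F₁ ![0, 0, z] 0 ≠ 0) ∧
      (TopRightTrivial r₁ F₁ → TopRightTrivial r F) := by
  have h0r : (0 : ℂ) ∈ ball (0 : ℂ) r := mem_ball_self hr
  have hf0 : Hol (fun x => F x 0) :=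
    AnalyticAt.comp₂ (h := fun p : (Fin 3 → ℂ) × ℂ => F p.1 p.2) (f := fun x => x)
      (g := fun _ => 0) (hF 0 h0r).1 analyticAt_id analyticAt_const
  obtain ⟨v, hv⟩ := exists_line hf0 (not_eventually_zero hf0 (hμ 0 h0r))
  have hv0 : v ≠ 0 := by
    rintro rfl
    refine hv (Eventually.of_forall fun z h => h ?_)
    rw [smul_zero]
    exact (hF 0 h0r).2
  have he0 : (Pi.single 2 1 : Fin 3 → ℂ) ≠ 0 := by
    intro h
    have := congrFun h 2
    simp at this
  obtain ⟨A, hA⟩ := SeparatingDual.exists_continuousLinearEquiv_apply_eq (R := ℂ) he0 hv0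
  obtain ⟨r', hr', -, hG, hGμ, -, hGT⟩ := H845.coord_change hr hF hμ (linCh A) (Set.mem_univ _)
    (fun q _ => ⟨rfl, fun hq => by rw [linCh_apply, hq, map_zero, ← hq],
      (A.prodCongr (ContinuousLinearEquiv.refl ℂ ℂ)).analyticAt q,
      (A.prodCongr (ContinuousLinearEquiv.refl ℂ ℂ)).symm.analyticAt _⟩)
  refine ⟨r', _, hr', hG, hGμ, ?_, hGT r'⟩
  refine hv.mono fun z hz => ?_
  rw [linCh_apply]
  have h1 : (![0, 0, z] : Fin 3 → ℂ) = z • Pi.single 2 1 := by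
    funext i
    fin_cases i <;> simp
  change F (A ![0, 0, z]) 0 ≠ 0
  rw [h1, map_smul, hA]
  exact hz

end Vale.Agent.P298.H401
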