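import Vale.Agent.P298.H373.Nu
import Vale.Agent.P271.H879.Null

/-!
# P298, row INI-INV (helper401), part 1: thinness of `∂₃ f = 0` on the surface `f = s`

If `f` does not vanish identically on a vertical line, the points of the surface at which
`∂₃ f = 0` form a thin set, also after a local change of coordinates.
-/

namespace Vale.Agent.P298.H401

open MeasureTheory Set Filter Topology Metric Vale.Agent.P298 Vale.Agent.P298.H379
  Vale.Agent.P298.H373
open scoped ENNReal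

variable {f : (Fin 3 → ℂ) → ℂ} {Ω : Set (Fin 3 → ℂ)} {s : ℂ}

/-- `f` is analytic on the open set `Ω` and not locally constant `s` on a vertical line through a
point of the surface `f = s`. -/
structure Thin (f : (Fin 3 → ℂ) → ℂ) (Ω : Set (Fin 3 → ℂ)) (s : ℂ) : Prop where
  isOpen : IsOpen Ω
  an : AnalyticOnNhd ℂ f Ω
  line : ∀ y ∈ Ω, f y = s → ∃ᶠ z in 𝓝 (y 2), f (pt (y 0, y 1) z) ≠ s

theorem Thin.mono {Ω' : Set (Fin 3 → ℂ)} (h : Thin f Ω s) (hΩ : IsOpen Ω') (hs : Ω' ⊆ Ω) :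
    Thin f Ω' s :=
  ⟨hΩ, h.an.mono hs, fun y hy => h.line y (hs hy)⟩

/-- a vertical line in a patch -/
theorem Patch.vertical {m l : Fin 3} (P : Patch f Ω s m 2 l) (hf : AnalyticOnNhd ℂ f Ω)
    (hm2 : m ≠ 2) (hml : m ≠ l) (h2l : (2 : Fin 3) ≠ l) {p : ℂ × ℂ} (hp : p ∈ P.W)
    (h : ∀ᶠ q in 𝓝 p, pd 2 f (P.g q) = 0) :
    ∀ᶠ z in 𝓝 p.2, f (Function.update (P.g p) 2 z) = s := by
  -- the derivative in the direction `(0, 1)`
  have h1 : ∀ q ∈ P.W, pd 2 f (P.g q) = 0 →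
      fderiv ℂ P.g q ((0 : ℂ), (1 : ℂ)) = Pi.single 2 1 := by
    intro q hq hq2
    have e1 := P.fderiv_f hf hq ((0 : ℂ), (1 : ℂ))
    have e2 : fderiv ℂ P.g q ((0 : ℂ), (1 : ℂ)) m = 0 := P.fderiv_i hq _
    have e3 : fderiv ℂ P.g q ((0 : ℂ), (1 : ℂ)) 2 = 1 := P.fderiv_j hq _
    rw [fderiv_apply_pd, Patch.sum_ijk hm2 hml h2l, e2, hq2] at e1
    have e4 : pd l f (P.g q) ≠ 0 := P.hne _ (P.gU q hq)
    have e5 : fderiv ℂ P.g q ((0 : ℂ), (1 : ℂ)) l = 0 := by
      simpa [e4] using e1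
    funext n
    rcases eq_or_eq_or_eq hm2 hml h2l n with hn | hn | hn
    · rw [hn, e2, Pi.single_eq_of_ne hm2]
    · rw [hn, e3, Pi.single_eq_same]
    · rw [hn, e5, Pi.single_eq_of_ne h2l.symm]
  obtain ⟨ε, hε, hball⟩ := Metric.eventually_nhds_iff_ball.1 (h.and (P.hW.mem_nhds hp))
  have hmem : ∀ z ∈ ball p.2 ε, (p.1, z) ∈ ball p ε := by
    intro z hz
    rw [mem_ball, Prod.dist_eq, max_lt_iff]
    exact ⟨by simpa using hε, hz⟩
  have hder : ∀ z ∈ ball p.2 ε, HasDerivAt (fun z : ℂ => P.g (p.1, z)) (Pi.single 2 1) z := by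
    intro z hz
    have h2 := hball _ (hmem z hz)
    have h3 := P.hasFDerivAt h2.2
    have h4 : HasDerivAt (fun z : ℂ => (p.1, z)) ((0 : ℂ), (1 : ℂ)) z :=
      (hasDerivAt_const z p.1).prodMk (hasDerivAt_id z)
    have h5 := h3.comp_hasDerivAt z h4
    rw [h1 _ h2.2 h2.1] at h5
    exact h5
  have hconst : ∀ z ∈ ball p.2 ε, P.g (p.1, z) = Function.update (P.g p) 2 z := by
    intro z hz
    have hder2 : ∀ z ∈ ball p.2 ε, HasDerivAt
        (fun z : ℂ => P.g (p.1, z) - z • (Pi.single 2 1 : Fin 3 → ℂ)) 0 z := by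
      intro z hz
      have h6 : HasDerivAt (fun z : ℂ => P.g (p.1, z) - z • (Pi.single 2 1 : Fin 3 → ℂ))
          (Pi.single 2 1 - (1 : ℂ) • (Pi.single 2 1 : Fin 3 → ℂ)) z :=
        (hder z hz).sub ((hasDerivAt_id z).smul_const (Pi.single 2 1 : Fin 3 → ℂ))
      rw [one_smul, sub_self] at h6
      exact h6
    have h7 : P.g (p.1, z) - z • (Pi.single 2 1 : Fin 3 → ℂ) =
        P.g (p.1, p.2) - p.2 • (Pi.single 2 1 : Fin 3 → ℂ) := by
      refine (convex_ball p.2 ε).is_const_of_fderivWithin_eq_zero (𝕜 := ℂ)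
        (f := fun z : ℂ => P.g (p.1, z) - z • (Pi.single 2 1 : Fin 3 → ℂ)) (fun z hz => ?_)
        (fun z hz => ?_) hz (mem_ball_self hε)
      · exact (hder2 z hz).differentiableAt.differentiableWithinAt
      · rw [fderivWithin_of_isOpen isOpen_ball hz, (hder2 z hz).hasFDerivAt.fderiv]
        simp
    have e3 : P.g p 2 = p.2 := P.gj p hp
    have h8 : P.g (p.1, z) = P.g p + (z - p.2) • (Pi.single 2 1 : Fin 3 → ℂ) := by
      have : P.g (p.1, p.2) = P.g p := rfl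
      rw [this] at h7
      rw [sub_eq_iff_eq_add] at h7
      rw [h7, sub_smul]
      abel
    rw [h8]
    funext n
    by_cases hn : n = 2
    · subst hn
      simp [e3]
    · simp [Function.update_of_ne hn, Pi.single_eq_of_ne hn]
  refine Metric.eventually_nhds_iff_ball.2 ⟨ε, hε, fun z hz => ?_⟩
  rw [← hconst z hz]
  exact P.gf _ (hball _ (hmem z hz)).2

/-- near a noncritical point of the surface there are points of the surface with `∂₃ f ≠ 0` -/
theorem Thin.frequently (h : Thin f Ω s) {y : Fin 3 → ℂ} (hy : y ∈ Ω) (hys : f y = s)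
    (hreg : fderiv ℂ f y ≠ 0) : ∃ᶠ y' in 𝓝 y, f y' = s ∧ pd 2 f y' ≠ 0 := by
  by_cases h2 : pd 2 f y ≠ 0
  · refine fun hcon => ?_
    exact hcon.self_of_nhds ⟨hys, h2⟩
  push Not at h2
  -- another partial derivative does not vanish
  obtain ⟨l, hl⟩ : ∃ l, pd l f y ≠ 0 := by
    by_contra hcon
    push Not at hcon
    apply hreg
    ext v
    rw [fderiv_apply_pd]
    simp [hcon]
  have hl2 : (2 : Fin 3) ≠ l := by
    rintro rfl
    exact hl h2
  obtain ⟨m, hm2, hml⟩ : ∃ m : Fin 3, m ≠ 2 ∧ m ≠ l := by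
    revert hl2
    clear hl
    revert l
    decide
  obtain ⟨P, hPy⟩ := exists_patch (s := s) h.isOpen h.an hm2 hml hl2 hy hl
  intro hcon
  have hp := P.inv y hPy hys
  have hgc : ContinuousAt P.g (y m, y 2) := (P.hg _ hp.1).continuousAt
  have h3 : ∀ᶠ q in 𝓝 (y m, y 2), pd 2 f (P.g q) = 0 := by
    have h4 : Tendsto P.g (𝓝 (y m, y 2)) (𝓝 y) := by
      have := hgc.tendsto
      rwa [hp.2] at this
    filter_upwards [h4.eventually hcon, P.hW.mem_nhds hp.1] with q hq hqW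
    by_contra hne
    exact hq ⟨P.gf q hqW, hne⟩
  have h5 := Patch.vertical P h.an hm2 hml hl2 hp.1 h3
  rw [hp.2] at h5
  have h6 : ∀ᶠ z in 𝓝 (y 2), f (pt (y 0, y 1) z) = s := by
    filter_upwards [h5] with z hz
    have : Function.update y 2 z = pt (y 0, y 1) z := by
      funext n
      fin_cases n <;> simp [pt]
    rwa [this] at hz
  exact h.line y hy hys (h6.mono fun z hz => not_not.2 hz)

end Vale.Agent.P298.H401
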