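import Vale.Agent.P298.H401.Inv

/-!
# P298 (helper401): the points of the surface with `∂₃ f = 0` have a null set as image under a
holomorphic map to the plane
-/

namespace Vale.Agent.P298.H401

open MeasureTheory Set Filter Topology Metric Vale.Agent.P298 Vale.Agent.P298.H379
  Vale.Agent.P298.H373
open scoped ENNReal NNReal

variable {f : (Fin 3 → ℂ) → ℂ} {Ω : Set (Fin 3 → ℂ)} {s : ℂ}

/-- in a patch the points with `∂₃ f = 0` form a null set of parameters -/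
theorem Patch.null_pd2 (hT : Thin f Ω s) {i j k : Fin 3} (P : Patch f Ω s i j k) :
    volume {p | p ∈ P.W ∧ pd 2 f (P.g p) = 0} = 0 := by
  refine measure_null_of_locally_null _ fun p₀ hp₀ => ?_
  obtain ⟨hp₀W, hp₀0⟩ := hp₀
  obtain ⟨ε, hε, hball⟩ := Metric.isOpen_iff.1 P.hW p₀ hp₀W
  refine ⟨{p | p ∈ ball p₀ ε ∧ pd 2 f (P.g p) = 0}, ?_, ?_⟩
  · rw [mem_nhdsWithin]
    exact ⟨ball p₀ ε, isOpen_ball, mem_ball_self hε, fun p hp => ⟨hp.1, hp.2.2⟩⟩
  · have hx₀U := P.gU p₀ hp₀W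
    have hreg : fderiv ℂ f (P.g p₀) ≠ 0 := by
      intro h0
      apply P.hne _ hx₀U
      unfold pd
      rw [h0]
      rfl
    have h1 := hT.frequently (P.hUΩ hx₀U) (P.gf p₀ hp₀W) hreg
    have hpr : Continuous (pr i j) := by
      unfold pr
      fun_prop
    have h2 : ∀ᶠ x in 𝓝 (P.g p₀), x ∈ P.U ∧ pr i j x ∈ ball p₀ ε := by
      refine Filter.Eventually.and (P.hU.mem_nhds hx₀U)
        (hpr.continuousAt.preimage_mem_nhds ?_)
      have : pr i j (P.g p₀) = p₀ := Prod.ext (P.gi p₀ hp₀W) (P.gj p₀ hp₀W)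
      rw [this]
      exact ball_mem_nhds p₀ hε
    obtain ⟨x, ⟨hx1, hx2⟩, hx3, hx4⟩ := (h1.and_eventually h2).exists
    obtain ⟨h6, h7⟩ := P.inv x hx3 hx1
    refine Vale.Agent.P271.H879.null_zeros volume (x0 := pr i j x) ?_ hx4 ?_
    · intro p hp
      have hpW := hball hp
      have hpU := P.hUΩ (P.gU p hpW)
      have e1 : AnalyticAt ℂ (pd 2 f) (P.g p) := by
        have e2 : AnalyticAt ℂ (fderiv ℂ f) (P.g p) := (hT.an _ hpU).fderiv
        exact (ContinuousLinearMap.apply ℂ ℂ (Pi.single 2 (1 : ℂ) : Fin 3 → ℂ)).analyticAt _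
          |>.fun_comp e2
      have e3 : DifferentiableAt ℂ P.g p := (P.hg p hpW).differentiableAt one_ne_zero
      exact (e1.differentiableAt.comp p e3).differentiableWithinAt
    · change pd 2 f (P.g (x i, x j)) ≠ 0
      rw [h7]
      exact hx2

/-- **Thin image.** Near the isolated singular point, the points of the surface `f = 0` with
`∂₃ f = 0` have a null image in the plane under a holomorphic pair. -/
theorem thin_image {e e' : (Fin 3 → ℂ) → ℂ} (hf : Hol f) (hreg : Reg3 f)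
    (hiso : ∀ᶠ x in 𝓝 (0 : Fin 3 → ℂ), (∀ l, pd l f x = 0) → x = 0) (he : Hol e)
    (he' : Hol e') : ∃ r > 0, volume {q : ℂ × ℂ | ∃ x ∈ ball (0 : Fin 3 → ℂ) r, x ≠ 0 ∧
      f x = 0 ∧ pd 2 f x = 0 ∧ e x = q.1 ∧ e' x = q.2} = 0 := by
  obtain ⟨Ω, hΩ, hT⟩ := exists_thin hf hreg
  obtain ⟨r, hr, hall⟩ := Metric.eventually_nhds_iff_ball.1
    (hiso.and (he.eventually_analyticAt.and (he'.eventually_analyticAt.and
      (eventually_mem_set.2 hΩ))))
  have hT' : Thin f (ball 0 r) 0 := hT.mono isOpen_ball fun x hx => (hall x hx).2.2.2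
  refine ⟨r, hr, ?_⟩
  have hij : ∀ k : Fin 3, ∃ ij : Fin 3 × Fin 3, ij.1 ≠ ij.2 ∧ ij.1 ≠ k ∧ ij.2 ≠ k := by
    decide
  choose ij h1 h2 h3 using hij
  have hex := fun k => exists_patches hT'.isOpen hT'.an (h1 k) (h2 k) (h3 k) (0 : ℂ)
  choose P A hA _ hAU hReg using hex
  have hsub : {q : ℂ × ℂ | ∃ x ∈ ball (0 : Fin 3 → ℂ) r, x ≠ 0 ∧
      f x = 0 ∧ pd 2 f x = 0 ∧ e x = q.1 ∧ e' x = q.2} ⊆
      ⋃ k, ⋃ n, (fun p => (e ((P k n).g p), e' ((P k n).g p))) ''
        {p | p ∈ (P k n).W ∧ pd 2 f ((P k n).g p) = 0} := by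
    rintro q ⟨x, hx, hx0, hfx, h2x, hex, hex'⟩
    obtain ⟨k, hk⟩ : ∃ k, pd k f x ≠ 0 := by
      by_contra hcon
      push Not at hcon
      exact hx0 ((hall x hx).1 hcon)
    have h5 : x ∈ Reg f (ball 0 r) 0 k := ⟨hx, hfx, hk⟩
    rw [hReg k, mem_iUnion] at h5
    obtain ⟨n, hn⟩ := h5
    obtain ⟨h6, h7⟩ := (P k n).inv x (hAU k n hn) hfx
    refine mem_iUnion.2 ⟨k, mem_iUnion.2 ⟨n, (x (ij k).1, x (ij k).2), ⟨h6, ?_⟩, ?_⟩⟩
    · rw [h7]
      exact h2x
    · change (e ((P k n).g (x (ij k).1, x (ij k).2)), e' ((P k n).g (x (ij k).1, x (ij k).2))) = q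
      rw [h7, hex, hex']
  refine measure_mono_null hsub (measure_iUnion_null fun k => measure_iUnion_null fun n => ?_)
  refine addHaar_image_eq_zero_of_differentiableOn_of_addHaar_eq_zero volume ?_
    (Patch.null_pd2 hT' (P k n))
  intro p hp
  have hpU := (P k n).hUΩ ((P k n).gU p hp.1)
  have e3 : DifferentiableAt ℂ (P k n).g p := ((P k n).hg p hp.1).differentiableAt one_ne_zero
  have e1 : DifferentiableAt ℂ (fun p => e ((P k n).g p)) p :=
    DifferentiableAt.fun_comp' p (hall _ hpU).2.1.differentiableAt e3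
  have e2 : DifferentiableAt ℂ (fun p => e' ((P k n).g p)) p :=
    DifferentiableAt.fun_comp' p (hall _ hpU).2.2.1.differentiableAt e3
  exact ((e1.prodMk e2).restrictScalars ℝ).differentiableWithinAt

end Vale.Agent.P298.H401
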