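import Vale.Agent.P298.H401.Germ
import Vale.Agent.P298.H401.Reg
import Vale.Agent.P298.H373.Inst

/-!
# P298, row INI-INV (helper401), part 6: pairs of germs and their Taylor polynomials
-/

namespace Vale.Agent.P298.H401

open MeasureTheory Set Filter Topology Metric Vale.Agent.P298 Vale.Agent.P298.H379
open scoped ENNReal NNReal

/-! ### polynomials of bounded degree -/

theorem exists_poly_deg {n : ℕ} (M : ℕ) : ∀ f : AnFun n, ∃ p : MvPolynomial (Fin n) ℂ,
    p.totalDegree ≤ M ∧ f - H766.toAn n p ∈ qM n M := by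
  induction M with
  | zero =>
    intro f
    exact ⟨0, by simp, by simp [qM]⟩
  | succ M ih =>
    intro f
    obtain ⟨c, g, hg⟩ := H766.hadamardA f
    choose p hp hp' using fun i => ih (g i)
    refine ⟨MvPolynomial.C c + ∑ i, MvPolynomial.X i * p i, ?_, ?_⟩
    · refine (MvPolynomial.totalDegree_add _ _).trans (max_le (by simp) ?_)
      refine (MvPolynomial.totalDegree_finsetSum _ _).trans (Finset.sup_le fun i _ => ?_)
      refine (MvPolynomial.totalDegree_mul _ _).trans ?_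
      rw [MvPolynomial.totalDegree_X]
      have := hp i
      omega
    · have h1 : f - H766.toAn n (MvPolynomial.C c + ∑ i, MvPolynomial.X i * p i) =
          (f - (algebraMap ℂ (AnFun n) c + ∑ i, coordF n i * g i)) +
            ∑ i, coordF n i * (g i - H766.toAn n (p i)) := by
        have h2 : H766.toAn n (MvPolynomial.C c) = algebraMap ℂ (AnFun n) c := by
          simp [H766.toAn]
        rw [map_add, h2, map_sum]
        simp only [map_mul, H766.toAn_X, mul_sub, Finset.sum_sub_distrib]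
        ring
      rw [h1]
      exact (qM n (M + 1)).add_mem (H766.nul_le_qM _ hg) (Submodule.sum_mem _ fun i _ =>
        H766.mul_mem_qM (H766.coordF_mem i) (hp' i))

/-- the vector of the coefficients of a polynomial -/
noncomputable def toQ (d e : ℕ) (p : MvPolynomial (Fin 3) ℂ) : Q d e := fun α =>
  p.coeff (Finsupp.equivFunOnFinite.symm fun i => (α.1 i : ℕ))

theorem ev_toQ {d e : ℕ} (p : MvPolynomial (Fin 3) ℂ) (hp : p.totalDegree ≤ e)
    (hp' : p.totalDegree < d) (x : Fin 3 → ℂ) : ev (toQ d e p) x = MvPolynomial.eval x p := by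
  classical
  rw [MvPolynomial.eval_eq', ev]
  symm
  refine Finset.sum_bij_ne_zero (fun s hs _ => (⟨fun i => ⟨s i, ?_⟩, ?_⟩ : Mon d e))
    ?_ ?_ ?_ ?_
  · have h1 := MvPolynomial.le_totalDegree hs
    rw [Finsupp.sum_fintype _ _ (fun _ => rfl)] at h1
    have h2 : s i ≤ ∑ i, s i := Finset.single_le_sum (f := fun i => s i)
      (fun _ _ => Nat.zero_le _) (Finset.mem_univ i)
    omega
  · have h1 := MvPolynomial.le_totalDegree hs
    rw [Finsupp.sum_fintype _ _ (fun _ => rfl), Fin.sum_univ_three] at h1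
    constructor
    · change s 0 + s 1 + s 2 ≤ e
      omega
    · change s 2 < d
      omega
  · intro s hs _
    exact Finset.mem_univ _
  · intro s hs _ s' hs' _ h
    ext i
    have h1 := congrArg (fun α : Mon d e => ((α.1 i : Fin (e + 1)) : ℕ)) h
    exact h1
  · intro α _ hα
    set s : Fin 3 →₀ ℕ := Finsupp.equivFunOnFinite.symm fun i => (α.1 i : ℕ) with hs
    have h1 : p.coeff s ≠ 0 := fun h => hα (by
      have : toQ d e p α = 0 := h
      rw [this, zero_mul])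
    have hsi : ∀ i, s i = (α.1 i : ℕ) := fun i => rfl
    refine ⟨s, MvPolynomial.mem_support_iff.2 h1, ?_, ?_⟩
    · intro h
      apply hα
      rw [← h]
      rfl
    · apply Subtype.ext
      funext i
      exact Fin.ext (hsi i)
  · intro s hs _
    refine congrArg₂ _ ?_ rfl
    unfold toQ
    congr 1
    ext i
    rfl

/-! ### ideals of finite colength -/

theorem exists_M (A : ℕ) : ∃ M : ℕ, 1 ≤ M ∧ ∀ s : Fin 3 → (Fin 3 → ℂ) → ℂ, (∀ j, Hol (s j)) →
    Colength s A → ∀ h ∈ qM 3 M, InIdeal s (h : (Fin 3 → ℂ) → ℂ) := by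
  obtain ⟨M, hM⟩ := qM_le 3 A
  refine ⟨max M 1, le_max_right _ _, fun s hs hA h hh => ?_⟩
  have h1 := hM (max M 1) (le_max_left _ _) _ (hasColength_of_colength hs hA)
  exact (mem_locIdeal_iff hs _).1 (h1 hh)

theorem hol_triple {g E E' : (Fin 3 → ℂ) → ℂ} (hg : Hol g) (hE : Hol E) (hE' : Hol E') :
    ∀ j, Hol ((![g, E, E'] : Fin 3 → (Fin 3 → ℂ) → ℂ) j) := by
  intro j
  fin_cases j
  · exact hg
  · exact hE
  · exact hE'

theorem qM_bound {M : ℕ} {h : AnFun 3} (hh : h ∈ qM 3 M) :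
    ∃ C : ℝ, 0 ≤ C ∧ ∀ᶠ x in 𝓝 (0 : Fin 3 → ℂ), ‖(h : (Fin 3 → ℂ) → ℂ) x‖ ≤ C * ‖x‖ ^ M := by
  rw [qM, Submodule.mem_sup] at hh
  obtain ⟨y, hy, z, hz, rfl⟩ := hh
  obtain ⟨C, hC⟩ := mX_pow_bound M z hz
  refine ⟨max C 0, le_max_right _ _, ?_⟩
  rw [mem_nul] at hy
  filter_upwards [hy, hC] with x h1 h2
  have h3 : ((y + z : AnFun 3) : (Fin 3 → ℂ) → ℂ) x = (y : (Fin 3 → ℂ) → ℂ) x +
    (z : (Fin 3 → ℂ) → ℂ) x := rfl
  rw [h3, h1]
  simp only [Pi.zero_apply, zero_add]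
  refine h2.trans ?_
  gcongr
  exact le_max_left _ _

theorem exists_norm_eq (x : Fin 3 → ℂ) : ∃ i, ‖x i‖ = ‖x‖ := by
  by_contra hcon
  push Not at hcon
  have h1 : ∀ i, ‖x i‖ < ‖x‖ := fun i => lt_of_le_of_ne (norm_le_pi_norm x i) (hcon i)
  have h2 : 0 < ‖x‖ := (norm_nonneg _).trans_lt (h1 0)
  exact lt_irrefl _ ((pi_norm_lt_iff h2).2 h1)

theorem bdd {c : (Fin 3 → ℂ) → ℂ} (hc : Hol c) :
    ∃ C : ℝ, 0 ≤ C ∧ ∀ᶠ x in 𝓝 (0 : Fin 3 → ℂ), ‖c x‖ ≤ C := by
  refine ⟨‖c 0‖ + 1, by positivity, ?_⟩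
  filter_upwards [(hc.continuousAt.norm).eventually (gt_mem_nhds (lt_add_one _))] with x hx
  exact le_of_lt hx

variable {g E E' : (Fin 3 → ℂ) → ℂ} {M : ℕ}

/-- On the surface `g = 0` the pair `E, E'` is not smaller than a power of the distance. -/
theorem curve_bound
    (hM : ∀ h ∈ qM 3 M, InIdeal ![g, E, E'] (h : (Fin 3 → ℂ) → ℂ)) :
    ∃ C : ℝ, 0 ≤ C ∧ ∀ᶠ x in 𝓝 (0 : Fin 3 → ℂ), g x = 0 → ‖x‖ ^ M ≤ C * max ‖E x‖ ‖E' x‖ := by
  have h1 : ∀ i : Fin 3, ∃ C : ℝ, 0 ≤ C ∧ ∀ᶠ x in 𝓝 (0 : Fin 3 → ℂ), g x = 0 →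
      ‖x i‖ ^ M ≤ C * max ‖E x‖ ‖E' x‖ := by
    intro i
    obtain ⟨a, ha, h2⟩ := hM (coordF 3 i ^ M)
      (H766.mX_pow_le_qM M (Ideal.pow_mem_pow (H766.coordF_mem i) M))
    obtain ⟨C1, hC1, hb1⟩ := bdd (ha 1)
    obtain ⟨C2, hC2, hb2⟩ := bdd (ha 2)
    refine ⟨C1 + C2, by positivity, ?_⟩
    filter_upwards [h2, hb1, hb2] with x h3 h4 h5 h6
    rw [Fin.sum_univ_three] at h3
    have h7 : ((coordF 3 i ^ M : AnFun 3) : (Fin 3 → ℂ) → ℂ) x = x i ^ M := by
      simp [coordF]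
    rw [h7] at h3
    have h8 : x i ^ M = a 1 x * E x + a 2 x * E' x := by
      rw [h3]
      simp [h6]
    rw [← norm_pow, h8]
    refine (norm_add_le _ _).trans ?_
    rw [norm_mul, norm_mul, add_mul]
    gcongr
    · exact le_max_left _ _
    · exact le_max_right _ _
  choose C hC hb using h1
  refine ⟨∑ i, C i, Finset.sum_nonneg fun i _ => hC i, ?_⟩
  filter_upwards [eventually_all.2 hb] with x hx hgx
  obtain ⟨i, hi⟩ := exists_norm_eq x
  rw [← hi]
  refine (hx i hgx).trans ?_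
  gcongr
  exact Finset.single_le_sum (fun j _ => hC j) (Finset.mem_univ i)

/-- The ideal generated by the pair is contained in the ideal of integrability. -/
theorem inI_of_inIdeal {k : ℝ} (hk : 0 < k) (hg : Hol g) (hE : InI g k E) (hE' : InI g k E')
    {h : (Fin 3 → ℂ) → ℂ} (hh : InIdeal ![g, E, E'] h) : InI g k h := by
  obtain ⟨a, ha, h1⟩ := hh
  have e0 : InI g k (fun x => a 0 x * g x) := by
    refine H967.inI_of_eq_zero hk (AnalyticAt.mul (ha 0) hg) (Eventually.of_forall fun x hx => ?_)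
    rw [hx, mul_zero]
  have e1 := H967.inI_mul_left hk hE (ha 1)
  have e2 := H967.inI_mul_left hk hE' (ha 2)
  have e3 := H967.inI_add H373.areaI hk hg (H967.inI_add H373.areaI hk hg e0 e1) e2
  refine H967.inI_congr e3 ?_
  filter_upwards [h1] with x hx
  rw [hx, Fin.sum_univ_three]
  rfl

/-- coefficients vanishing at the origin -/
theorem exists_small (hM : ∀ h ∈ qM 3 M, InIdeal ![g, E, E'] (h : (Fin 3 → ℂ) → ℂ))
    {a : AnFun 3} (ha : a ∈ qM 3 (M + 1)) : ∃ α : Fin 3 → (Fin 3 → ℂ) → ℂ, (∀ j, Hol (α j)) ∧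
      (∀ j, α j 0 = 0) ∧ ∀ᶠ x in 𝓝 (0 : Fin 3 → ℂ), (a : (Fin 3 → ℂ) → ℂ) x =
        α 0 x * g x + α 1 x * E x + α 2 x * E' x := by
  rw [qM, Submodule.mem_sup] at ha
  obtain ⟨y, hy, z, hz, rfl⟩ := ha
  rw [mem_nul] at hy
  have key : ∀ z ∈ mX 3 ^ (M + 1), ∃ α : Fin 3 → (Fin 3 → ℂ) → ℂ, (∀ j, Hol (α j)) ∧
      (∀ j, α j 0 = 0) ∧ ∀ᶠ x in 𝓝 (0 : Fin 3 → ℂ), (z : (Fin 3 → ℂ) → ℂ) x =
        α 0 x * g x + α 1 x * E x + α 2 x * E' x := by
    intro z hz
    rw [pow_succ'] at hz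
    refine Submodule.mul_induction_on hz ?_ ?_
    · intro u hu w hw
      obtain ⟨b, hb, h1⟩ := hM w (H766.mX_pow_le_qM M hw)
      have hu0 : (u : (Fin 3 → ℂ) → ℂ) 0 = 0 := by
        have h2 : mX 3 ≤ RingHom.ker (ev0 3) := by
          refine Ideal.span_le.2 ?_
          rintro _ ⟨i, rfl⟩
          exact ev0_coordF i
        exact h2 hu
      refine ⟨fun j x => (u : (Fin 3 → ℂ) → ℂ) x * b j x, fun j => AnalyticAt.mul u.2 (hb j),
        fun j => by simp [hu0], ?_⟩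
      filter_upwards [h1] with x hx
      have h3 : ((u * w : AnFun 3) : (Fin 3 → ℂ) → ℂ) x = (u : (Fin 3 → ℂ) → ℂ) x *
        (w : (Fin 3 → ℂ) → ℂ) x := rfl
      rw [h3, hx, Fin.sum_univ_three]
      simp only [Matrix.cons_val_zero, Matrix.cons_val_one, Matrix.cons_val]
      ring
    · rintro u w ⟨b, hb, hb0, h1⟩ ⟨b', hb', hb0', h1'⟩
      refine ⟨fun j x => b j x + b' j x, fun j => AnalyticAt.add (hb j) (hb' j),
        fun j => by simp [hb0, hb0'], ?_⟩
      filter_upwards [h1, h1'] with x hx hx'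
      have h3 : ((u + w : AnFun 3) : (Fin 3 → ℂ) → ℂ) x = (u : (Fin 3 → ℂ) → ℂ) x +
        (w : (Fin 3 → ℂ) → ℂ) x := rfl
      rw [h3, hx, hx']
      ring
  obtain ⟨α, h1, h2, h3⟩ := key z hz
  refine ⟨α, h1, h2, ?_⟩
  filter_upwards [h3, hy] with x hx hx'
  have h3 : ((y + z : AnFun 3) : (Fin 3 → ℂ) → ℂ) x = (y : (Fin 3 → ℂ) → ℂ) x +
    (z : (Fin 3 → ℂ) → ℂ) x := rfl
  rw [h3, hx, hx']
  simp

/-- the colength does not change under perturbations of high order -/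
theorem colength_perturb
    (hM : ∀ h ∈ qM 3 M, InIdeal ![g, E, E'] (h : (Fin 3 → ℂ) → ℂ)) {F F' : (Fin 3 → ℂ) → ℂ}
    {a b : AnFun 3} (ha : a ∈ qM 3 (M + 1)) (hb : b ∈ qM 3 (M + 1))
    (haF : ∀ᶠ x in 𝓝 (0 : Fin 3 → ℂ), F x = E x + (a : (Fin 3 → ℂ) → ℂ) x)
    (hbF : ∀ᶠ x in 𝓝 (0 : Fin 3 → ℂ), F' x = E' x + (b : (Fin 3 → ℂ) → ℂ) x) {A : ℕ}
    (hA : Colength ![g, E, E'] A) : Colength ![g, F, F'] A := by
  obtain ⟨α, hα, hα0, h1⟩ := exists_small hM ha
  obtain ⟨β, hβ, hβ0, h2⟩ := exists_small hM hb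
  set D : (Fin 3 → ℂ) → ℂ := fun x => (1 + α 1 x) * (1 + β 2 x) - α 2 x * β 1 x with hD
  have hDh : Hol D := by
    have c1 : AnalyticAt ℂ (fun _ : Fin 3 → ℂ => (1 : ℂ)) 0 := analyticAt_const
    exact ((c1.add (hα 1)).mul (c1.add (hβ 2))).sub ((hα 2).mul (hβ 1))
  have hD0 : D 0 ≠ 0 := by simp [hD, hα0, hβ0]
  have hDn : ∀ᶠ x in 𝓝 (0 : Fin 3 → ℂ), D x ≠ 0 := hDh.continuousAt.eventually_ne hD0
  have c1 : AnalyticAt ℂ (fun _ : Fin 3 → ℂ => (1 : ℂ)) 0 := analyticAt_const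
  refine (H766.colength_congr (fun j => ?_) (fun j => ?_) A).1 hA
  · fin_cases j
    · exact H766.inIdeal_self ![g, F, F'] 0
    · refine ⟨![fun x => (-(1 + β 2 x) * α 0 x + α 2 x * β 0 x) / D x,
        fun x => (1 + β 2 x) / D x, fun x => -α 2 x / D x], fun j => ?_, ?_⟩
      · fin_cases j
        · exact ((((c1.add (hβ 2)).neg).mul (hα 0)).add ((hα 2).mul (hβ 0))).div hDh hD0
        · exact (c1.add (hβ 2)).div hDh hD0
        · exact (hα 2).neg.div hDh hD0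
      · filter_upwards [h1, h2, haF, hbF, hDn] with x e1 e2 e3 e4 e5
        rw [Fin.sum_univ_three]
        simp only [Matrix.cons_val_zero, Matrix.cons_val_one, Matrix.cons_val, Fin.zero_eta,
          Fin.mk_one, Fin.reduceFinMk]
        rw [e3, e4, e1, e2]
        field_simp
        simp only [hD]
        ring
    · refine ⟨![fun x => (β 1 x * α 0 x - (1 + α 1 x) * β 0 x) / D x,
        fun x => -β 1 x / D x, fun x => (1 + α 1 x) / D x], fun j => ?_, ?_⟩
      · fin_cases j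
        · exact (((hβ 1).mul (hα 0)).sub ((c1.add (hα 1)).mul (hβ 0))).div hDh hD0
        · exact (hβ 1).neg.div hDh hD0
        · exact (c1.add (hα 1)).div hDh hD0
      · filter_upwards [h1, h2, haF, hbF, hDn] with x e1 e2 e3 e4 e5
        rw [Fin.sum_univ_three]
        simp only [Matrix.cons_val_zero, Matrix.cons_val_one, Matrix.cons_val, Fin.zero_eta,
          Fin.mk_one, Fin.reduceFinMk]
        rw [e3, e4, e1, e2]
        field_simp
        simp only [hD]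
        ring
  · fin_cases j
    · exact H766.inIdeal_self ![g, E, E'] 0
    · refine ⟨![α 0, fun x => 1 + α 1 x, α 2], fun j => ?_, ?_⟩
      · fin_cases j
        · exact hα 0
        · exact c1.add (hα 1)
        · exact hα 2
      · filter_upwards [h1, haF] with x e1 e3
        rw [Fin.sum_univ_three]
        simp only [Matrix.cons_val_zero, Matrix.cons_val_one, Matrix.cons_val, Fin.zero_eta,
          Fin.mk_one, Fin.reduceFinMk]
        rw [e3, e1]
        ring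
    · refine ⟨![β 0, β 1, fun x => 1 + β 2 x], fun j => ?_, ?_⟩
      · fin_cases j
        · exact hβ 0
        · exact hβ 1
        · exact c1.add (hβ 2)
      · filter_upwards [h2, hbF] with x e2 e4
        rw [Fin.sum_univ_three]
        simp only [Matrix.cons_val_zero, Matrix.cons_val_one, Matrix.cons_val, Fin.zero_eta,
          Fin.mk_one, Fin.reduceFinMk]
        rw [e4, e2]
        ring

end Vale.Agent.P298.H401
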